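import Vale.Agent.P097.H835.Flow

/-!
# Division of an analytic function by a coordinate

If `F : E × ℂ → G` is analytic at `(x₀, 0)` and vanishes on `E × {0}` near `x₀`, then
`F (x, z) = z • Q (x, z)` with `Q` analytic at `(x₀, 0)`.
-/

namespace Vale.Agent.P097.H288

open Set Metric Topology Filter Vale.Agent.P097.H835

variable {E G : Type*} [NormedAddCommGroup E] [NormedSpace ℂ E] [NormedAddCommGroup G]
  [NormedSpace ℂ G]

/-- the segment `s ↦ (x, s z)` -/
noncomputable def seg : (E × ℂ) →L[ℂ] C(I01, E × ℂ) :=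
  LinearMap.mkContinuous
    { toFun := fun p => ⟨fun s => (p.1, ((s : ℝ) : ℂ) * p.2), by fun_prop⟩
      map_add' := fun p q => by
        ext s
        · simp
        · simp [mul_add]
      map_smul' := fun c p => by
        ext s
        · simp
        · simp only [Prod.smul_snd, smul_eq_mul, ContinuousMap.coe_mk, RingHom.id_apply,
            ContinuousMap.coe_smul, Pi.smul_apply]
          ring } 1 (fun p => by
      rw [one_mul]
      refine (ContinuousMap.norm_le _ (norm_nonneg _)).2 fun s => ?_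
      refine max_le (norm_fst_le p) ?_
      refine le_trans ?_ (norm_snd_le p)
      show ‖((s : ℝ) : ℂ) * p.2‖ ≤ _
      rw [norm_mul, Complex.norm_real, Real.norm_of_nonneg s.2.1]
      exact mul_le_of_le_one_left (norm_nonneg _) s.2.2)

theorem seg_apply (p : E × ℂ) (s : I01) : seg p s = (p.1, ((s : ℝ) : ℂ) * p.2) := rfl

/-- **Division lemma.** -/
theorem exists_div [CompleteSpace G] {F : E × ℂ → G} {x₀ : E} (hF : AnalyticAt ℂ F (x₀, 0))
    (h0 : ∀ᶠ x in 𝓝 x₀, F (x, 0) = 0) :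
    ∃ Q : E × ℂ → G, AnalyticAt ℂ Q (x₀, 0) ∧ (∀ᶠ p in 𝓝 (x₀, (0 : ℂ)), F p = p.2 • Q p) ∧
      ∀ᶠ x in 𝓝 x₀, Q (x, 0) = fderiv ℂ F (x, 0) (0, 1) := by
  set H : E × ℂ → G := fun p => fderiv ℂ F p (0, 1) with hH
  have hHa : AnalyticAt ℂ H (x₀, 0) := by
    have h1 : AnalyticAt ℂ (fderiv ℂ F) (x₀, 0) := hF.fderiv
    exact (ContinuousLinearMap.apply ℂ G ((0 : E), (1 : ℂ))).analyticAt _ |>.comp h1
  have hseg0 : (seg ((x₀, 0) : E × ℂ)) = ContinuousMap.const I01 (x₀, (0 : ℂ)) := by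
    ext s
    · rfl
    · simp [seg_apply]
  set Q : E × ℂ → G := fun p => prim (supO H (seg p)) 1 with hQ
  have hQa : AnalyticAt ℂ Q (x₀, 0) := by
    have h1 : AnalyticAt ℂ (supO H) (seg ((x₀, 0) : E × ℂ)) := by
      rw [hseg0]; exact analyticAt_supO hHa
    have h2 : AnalyticAt ℂ (fun p : E × ℂ => supO H (seg p)) (x₀, 0) :=
      AnalyticAt.comp (g := supO H) (f := fun p : E × ℂ => seg p) h1 ((seg (E := E)).analyticAt _)
    have h3 : AnalyticAt ℂ (fun u : C(I01, G) => prim u 1) (supO H (seg ((x₀, 0) : E × ℂ))) := by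
      let L : C(I01, G) →L[ℂ] G := (ContinuousMap.evalCLM ℂ (1 : I01)).comp prim
      exact L.analyticAt _
    exact AnalyticAt.comp (g := fun u : C(I01, G) => prim u 1)
      (f := fun p : E × ℂ => supO H (seg p)) h3 h2
  obtain ⟨r, hr, hb⟩ : ∃ r > 0, ∀ p ∈ ball ((x₀, 0) : E × ℂ) r, AnalyticAt ℂ F p ∧
      AnalyticAt ℂ H p :=
    Metric.eventually_nhds_iff_ball.1 (hF.eventually_analyticAt.and hHa.eventually_analyticAt)
  have hmem : ∀ p ∈ ball ((x₀, 0) : E × ℂ) r, ∀ s : I01, seg p s ∈ ball ((x₀, 0) : E × ℂ) r := by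
    intro p hp s
    rw [mem_ball, dist_eq_norm] at hp ⊢
    refine lt_of_le_of_lt (max_le ?_ ?_) hp
    · exact norm_fst_le (p - (x₀, 0))
    · refine le_trans ?_ (norm_snd_le (p - (x₀, 0)))
      show ‖((s : ℝ) : ℂ) * p.2 - 0‖ ≤ ‖p.2 - 0‖
      rw [sub_zero, sub_zero, norm_mul, Complex.norm_real, Real.norm_of_nonneg s.2.1]
      exact mul_le_of_le_one_left (norm_nonneg _) s.2.2
  have hcont : ∀ p ∈ ball ((x₀, 0) : E × ℂ) r, Continuous (H ∘ seg p) := by
    intro p hp
    rw [continuous_iff_continuousAt]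
    intro s
    exact ContinuousAt.comp (hb _ (hmem p hp s)).2.continuousAt (seg p).continuous.continuousAt
  have hint : ∀ p ∈ ball ((x₀, 0) : E × ℂ) r, Q p = ∫ s in (0 : ℝ)..1,
      H (p.1, (s : ℂ) * p.2) := by
    intro p hp
    rw [hQ]
    simp only
    rw [prim_apply]
    refine intervalIntegral.integral_congr fun s hs => ?_
    have hs' : s ∈ Icc (0 : ℝ) 1 := by
      have : uIcc (0 : ℝ) ((1 : I01) : ℝ) = Icc 0 1 := by
        simp
      rwa [this] at hs
    show IccExtend zero_le_one (supO H (seg p)) s = _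
    rw [IccExtend_of_mem _ _ hs', supO_apply (hcont p hp)]
    rfl
  refine ⟨Q, hQa, ?_, ?_⟩
  · have h1 : ∀ᶠ p in 𝓝 ((x₀, 0) : E × ℂ), p ∈ ball ((x₀, 0) : E × ℂ) r := ball_mem_nhds _ hr
    have h2 : ∀ᶠ p in 𝓝 ((x₀, 0) : E × ℂ), F (p.1, 0) = 0 :=
      (continuous_fst.tendsto ((x₀, 0) : E × ℂ)).eventually h0
    filter_upwards [h1, h2] with p hp h3
    have h4 : ∀ s ∈ uIcc (0 : ℝ) 1, HasDerivAt (fun s : ℝ => F (p.1, (s : ℂ) * p.2))
        (p.2 • H (p.1, (s : ℂ) * p.2)) s := by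
      intro s hs
      rw [uIcc_of_le zero_le_one] at hs
      have h5 : AnalyticAt ℂ F (p.1, (s : ℂ) * p.2) := (hb _ (hmem p hp ⟨s, hs⟩)).1
      have h6 : HasDerivAt (fun z : ℂ => (p.1, z * p.2)) ((0 : E), p.2) (s : ℂ) := by
        refine HasDerivAt.prodMk (hasDerivAt_const _ _) ?_
        simpa using (hasDerivAt_id (s : ℂ)).mul_const p.2
      have h7 : HasDerivAt (fun z : ℂ => F (p.1, z * p.2))
          (fderiv ℂ F (p.1, (s : ℂ) * p.2) ((0 : E), p.2)) (s : ℂ) :=
        h5.differentiableAt.hasFDerivAt.comp_hasDerivAt (s : ℂ) h6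
      have h8 : fderiv ℂ F (p.1, (s : ℂ) * p.2) ((0 : E), p.2) =
          p.2 • H (p.1, (s : ℂ) * p.2) := by
        rw [hH]
        simp only
        rw [← map_smul]
        congr 1
        simp
      rw [h8] at h7
      have h10 := h7.scomp s Complex.ofRealCLM.hasDerivAt
      simp only [Complex.ofRealCLM_apply, Complex.ofReal_one, one_smul] at h10
      exact h10
    have h9 : ∫ s in (0 : ℝ)..1, p.2 • H (p.1, (s : ℂ) * p.2) =
        F (p.1, ((1 : ℝ) : ℂ) * p.2) - F (p.1, ((0 : ℝ) : ℂ) * p.2) := by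
      refine intervalIntegral.integral_eq_sub_of_hasDerivAt h4 ?_
      refine ContinuousOn.intervalIntegrable fun s hs => ?_
      rw [uIcc_of_le zero_le_one] at hs
      have h5 : ContinuousAt H (p.1, (s : ℂ) * p.2) := (hb _ (hmem p hp ⟨s, hs⟩)).2.continuousAt
      have h6 : ContinuousAt (fun s : ℝ => ((p.1, (s : ℂ) * p.2) : E × ℂ)) s := by fun_prop
      exact ((ContinuousAt.comp (f := fun s : ℝ => ((p.1, (s : ℂ) * p.2) : E × ℂ)) (g := H)
        h5 h6).const_smul p.2).continuousWithinAt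
    rw [hint p hp, ← intervalIntegral.integral_smul, h9]
    simp [h3]
  · have h1 : ∀ᶠ x in 𝓝 x₀, ((x, 0) : E × ℂ) ∈ ball ((x₀, 0) : E × ℂ) r := by
      have : ContinuousAt (fun x : E => ((x, 0) : E × ℂ)) x₀ := by fun_prop
      exact this.eventually (ball_mem_nhds _ hr)
    filter_upwards [h1] with x hx
    rw [hint _ hx]
    simp [hH]

end Vale.Agent.P097.H288
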