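import Vale.Agent.P097.H288.DefZero

/-!
# Row F2c of the finite chain theorem

A deformation of the natural word which fixes the outer lines is trivial to first order.
-/

namespace Vale.Agent.P097.H288

open Set Metric Topology Filter
open Vale.Agent.P097.TA Vale.Agent.P097.H202
open Vale.Agent.P097.H456 Vale.Agent.P097.H456.Fct

theorem isOpen_Box (t1 : ℂ) (r1 : ℝ) : IsOpen (Box t1 r1) := isOpen_ball.prod isOpen_ball

variable {κ Λ : ℝ} {H Φ : ℂ → ℂ} {r e : ℝ} {α p : ℂ → ℂ → ℂ} {J : ℂ → ℂ}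

/-- derivative in `w` of the line number `i` at `w = 0` -/
theorem hasDerivAt_nat (L : Lines κ Λ H Φ r e α p J) {t : ℂ} (ht : (t, (0 : ℂ)) ∈ WW 0 r e) (i : ℕ) :
    HasDerivAt (fun w : ℂ => nat α 1 i (t, w))
      ((fderiv ℂ (fun p : ℂ × ℂ => α p.1 p.2) (t, 0)) ((i : ℂ), 1)) 0 := by
  have hA := an_of_JD L.jα ht
  have h2 : HasDerivAt (fun w : ℂ => (t + i * w, w)) ((i : ℂ), 1) 0 := by
    have := ((hasDerivAt_id (0 : ℂ)).const_mul (i : ℂ)).const_add t
    simpa using this.prodMk (hasDerivAt_id (0 : ℂ))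
  have h3 : HasFDerivAt (fun p : ℂ × ℂ => α p.1 p.2)
      (fderiv ℂ (fun p : ℂ × ℂ => α p.1 p.2) (t, 0)) ((fun w : ℂ => (t + i * w, w)) 0) := by
    simpa using hA.differentiableAt.hasFDerivAt
  have h4 := HasFDerivAt.comp_hasDerivAt (f := fun w : ℂ => (t + i * w, w)) (0 : ℂ) h3 h2
  refine h4.congr_of_eventuallyEq (Eventually.of_forall fun w => ?_)
  simp [nat]

/-- the natural letters of the box `Box t1 r1` -/
theorem exists_nat_D (L : Lines κ Λ H Φ r e α p J) {n : ℕ} {t1 : ℂ} {r1 : ℝ}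
    (nb : NBox H r e α p 1 n t1 r1) {j : ℕ} (hj : j < n) :
    ∃ D : ℂ × ℂ → ℂ, AnalyticOnNhd ℂ D (Box t1 r1) ∧ (∀ u ∈ Box t1 r1, D u ≠ 0) ∧
      (∀ u ∈ Box t1 r1, nat α 1 (j + 1) u = nat α 1 j u + 2 * (u.2 * D u)) ∧
      ∀ t ∈ ball t1 r1, D (t, 0) = fderiv ℂ (fun p : ℂ × ℂ => α p.1 p.2) (t, 0) (1, 0) / 2 := by
  have hpos := nb.pos
  have h0 : ∀ t ∈ ball t1 r1, ((t, 0) : ℂ × ℂ) ∈ Box t1 r1 := fun t ht =>
    ⟨ht, mem_ball_self hpos⟩
  have h00 := h0 t1 (mem_ball_self hpos)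
  rcases nb.sw.kind j hj with hT | ⟨k, D, hD, hD0, hD1⟩
  · exfalso
    refine hT _ h00 ?_
    rw [nat_zero le_rfl, nat_zero le_rfl, sub_self, zero_div, Complex.sin_zero]
  · have hk : (2 : ℂ) * Real.pi * k = 0 := by
      have := hD1 _ h00
      rw [nat_zero le_rfl, nat_zero le_rfl, sub_self] at this
      simp only [pow_one, mul_zero, zero_mul, add_zero] at this
      exact this.symm
    have hE : ∀ u ∈ Box t1 r1, nat α 1 (j + 1) u = nat α 1 j u + 2 * (u.2 * D u) := by
      intro u hu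
      have := hD1 u hu
      rw [hk, pow_one] at this
      linear_combination this
    refine ⟨D, hD, hD0, hE, fun t ht => ?_⟩
    have hm : (t, (0 : ℂ)) ∈ WW 0 r e := by
      have := nb.mem _ (h0 t ht) 0 (Nat.zero_le _)
      simpa using this
    have e1 := (hasDerivAt_nat L hm (j + 1)).sub (hasDerivAt_nat L hm j)
    have e2 : HasDerivAt (fun w : ℂ => D (t, w)) (deriv (fun w : ℂ => D (t, w)) 0) 0 := by
      have e3 : AnalyticAt ℂ (fun w : ℂ => D (t, w)) 0 :=
        AnalyticAt.comp (g := D) (f := fun w : ℂ => (t, w)) (hD _ (h0 t ht)) (by fun_prop)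
      exact e3.differentiableAt.hasDerivAt
    have e4 : HasDerivAt (fun w : ℂ => 2 * (w * D (t, w))) (2 * D (t, 0)) 0 := by
      have := ((hasDerivAt_id (0 : ℂ)).fun_mul e2).const_mul 2
      refine this.congr_deriv ?_
      simp
    have e5 : (fun w : ℂ => nat α 1 (j + 1) (t, w) - nat α 1 j (t, w)) =ᶠ[𝓝 0]
        fun w => 2 * (w * D (t, w)) := by
      filter_upwards [ball_mem_nhds (0 : ℂ) hpos] with w hw
      have := hE (t, w) ⟨ht, hw⟩
      rw [this]
      ring
    have e6 := (e4.congr_of_eventuallyEq e5).unique e1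
    rw [← map_sub] at e6
    have e7 : (((j + 1 : ℕ) : ℂ), (1 : ℂ)) - ((j : ℂ), (1 : ℂ)) = (1, 0) := by
      ext
      · simp
      · simp
    rw [e7] at e6
    rw [← e6]
    ring

/-- **row F2c** -/
theorem f2c : F2c := by
  intro κ Λ H Φ r e α p J T n t1 r1 u2 G A Q nb Df cl
  have L := T.ln
  have hpos := nb.pos
  set S : Set ℂ := ball 0 r1 with hSdef
  have hS : IsOpen S := isOpen_ball
  have hSc : IsPreconnected S := (convex_ball _ _).isPreconnected
  have h0S : (0 : ℂ) ∈ S := mem_ball_self hpos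
  have hu1 : u2.1 ∈ ball (t1 : ℂ) r1 := Df.mem.1
  have hu2 : u2.2 ∈ S := Df.mem.2
  have hBox : IsOpen (Box (t1 : ℂ) r1) := isOpen_Box _ _
  have hin : ∀ t ∈ ball (t1 : ℂ) r1, ∀ w ∈ S, ((t, w) : ℂ × ℂ) ∈ Box (t1 : ℂ) r1 :=
    fun t ht w hw => ⟨ht, hw⟩
  have hD := fun j (hj : j < n) => exists_nat_D L nb hj
  choose! D hDa hD0 hDE hDc using hD
  have hκ := κ_pos T
  have hStr : ∀ u ∈ Box (t1 : ℂ) r1, ∀ j ≤ n, AnalyticAt ℂ H (nat α 1 j u) := by
    intro u hu j hj
    have h1 := L.mem _ _ (nb.mem u hu j hj)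
    refine H_an T ?_
    have h2 : |(nat α 1 j u).im| < κ / 2 := h1
    show |(nat α 1 j u).im| < κ
    linarith
  have hmid : ∀ j, j < n → ∀ u ∈ Box (t1 : ℂ) r1,
      Fct.mid (nat α 1 j) (nat α 1 (j + 1)) u = nat α 1 j u + u.2 * D j u := by
    intro j hj u hu
    rw [Fct.mid, hDE j hj u hu]
    ring
  have hhalf : ∀ j, j < n → ∀ u ∈ Box (t1 : ℂ) r1,
      (nat α 1 (j + 1) u - nat α 1 j u) / 2 = u.2 * D j u := by
    intro j hj u hu
    rw [hDE j hj u hu]
    ring
  have hz := Def_zero hBox nb.sw Df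
  -- one phase
  have key : ∀ᶠ t in 𝓝 u2.1, ∀ j < n, disp (G j) (α t 0) = 0 := by
    have f0 : ∀ᶠ t in 𝓝 u2.1, t ∈ ball (t1 : ℂ) r1 := isOpen_ball.mem_nhds hu1
    have f1 : ∀ᶠ t in 𝓝 u2.1, ∀ j ∈ Finset.range (n + 1), ∀ᶠ w in 𝓝 u2.2,
        A j ((t, w), 0) = nat α 1 j (t, w) ∧ Q j ((t, w), 0) = nat p 1 j (t, w) := by
      rw [Filter.eventually_all_finset]
      exact fun j hj => ev2 (hz j (by simpa [Nat.lt_succ_iff] using hj))
    have f2 : ∀ᶠ t in 𝓝 u2.1, ∀ j ∈ Finset.range (n + 1), ∀ᶠ w in 𝓝 u2.2,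
        ContinuousAt (A j) ((t, w), 0) := by
      rw [Filter.eventually_all_finset]
      intro j hj
      have h1 := (Df.AA j (by simpa [Nat.lt_succ_iff] using hj)).eventually_analyticAt
      have h2 := ev3 h1
      filter_upwards [h2] with t h3
      filter_upwards [h3] with w h4
      exact h4.self_of_nhds.continuousAt
    have f3 : ∀ᶠ t in 𝓝 u2.1, ∀ j ∈ Finset.range n, ∀ᶠ w in 𝓝 u2.2, ∀ᶠ ε in 𝓝 (0 : ℂ),
        Let (fun z => G j (z, ε)) (A j ((t, w), ε)) (Q j ((t, w), ε)) (A (j + 1) ((t, w), ε))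
          (Q (j + 1) ((t, w), ε)) := by
      rw [Filter.eventually_all_finset]
      exact fun j hj => ev3 (Df.lt j (Finset.mem_range.1 hj))
    filter_upwards [f0, f1, f2, f3, ev3 Df.bs, ev3 cl] with t g0 g1 g2 g3 g4 g5
    rcases Nat.eq_zero_or_pos n with hn | hn
    · intro j hj
      omega
    -- the letters
    have hGH : ∀ j < n, GHyp S u2.2 H (gdiv H (G j)) (fun w => D j (t, w))
        (fun w => nat α 1 j (t, w)) (fun w => nat p 1 j (t, w))
        (fun w => nat α 1 (j + 1) (t, w)) (fun w => nat p 1 (j + 1) (t, w))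
        (fun w ε => A j ((t, w), ε)) (fun w ε => Q j ((t, w), ε))
        (fun w ε => A (j + 1) ((t, w), ε)) (fun w ε => Q (j + 1) ((t, w), ε)) := by
      intro j hj
      have hcw : ∀ w : ℂ, ContinuousAt (fun w : ℂ => ((t, w) : ℂ × ℂ)) w := fun w => by fun_prop
      refine
        { Dc := fun w hw => ?_
          ac := ?_
          h1 := fun w hw => hStr _ (hin t g0 w hw) j hj.le
          h2 := fun w hw => ?_
          h3 := fun w hw => ?_
          hg := fun w hw => ?_
          hr := fun w hw => ?_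
          hD := fun w hw => hD0 j hj _ (hin t g0 w hw)
          hs := fun w hw hw0 => ?_
          ha' := fun w hw => hDE j hj _ (hin t g0 w hw)
          hq := fun w hw => ?_
          hq' := fun w hw => ?_
          hph := ?_ }
      · exact ContinuousAt.comp (f := fun w : ℂ => ((t, w) : ℂ × ℂ)) (g := D j)
          (hDa j hj _ (hin t g0 w hw)).continuousAt (hcw w)
      · exact ContinuousAt.comp (f := fun w : ℂ => ((t, w) : ℂ × ℂ)) (g := nat α 1 j)
          (nb.sw.aA j hj.le _ (hin t g0 0 h0S)).continuousAt (hcw 0)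
      · have h1 := nb.sw.mA j hj _ (hin t g0 w hw)
        rw [hmid j hj _ (hin t g0 w hw)] at h1
        exact h1
      · have h1 := hStr _ (hin t g0 w hw) (j + 1) hj
        rw [hDE j hj _ (hin t g0 w hw)] at h1
        exact h1
      · have h1 := Df.gA j hj _ (hin t g0 w hw)
        have h2 := Df.g0 j hj _ (hin t g0 w hw)
        have h3 := nb.sw.mA j hj _ (hin t g0 w hw)
        rw [hmid j hj _ (hin t g0 w hw)] at h1 h2 h3
        exact analyticAt_gdiv h1 h2 h3
      · have h1 := nb.sw.curv j hj _ (hin t g0 w hw)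
        rw [hmid j hj _ (hin t g0 w hw)] at h1
        exact h1
      · have h1 := nb.sw.sn j hj _ (hin t g0 w hw) hw0
        rw [hhalf j hj _ (hin t g0 w hw)] at h1
        exact h1
      · have h1 := nb.sw.lt j hj _ (hin t g0 w hw)
        rw [Let_iff, hhalf j hj _ (hin t g0 w hw)] at h1
        exact h1.1
      · have h1 := nb.sw.lt j hj _ (hin t g0 w hw)
        rw [Let_iff, hhalf j hj _ (hin t g0 w hw)] at h1
        exact h1.2
      · have hcε : ∀ w : ℂ, ContinuousAt (fun ε : ℂ => (((t, w), ε) : (ℂ × ℂ) × ℂ)) 0 :=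
          fun w => by fun_prop
        filter_upwards [g1 j (by simp; omega), g1 (j + 1) (by simp; omega), g2 j (by simp; omega),
          g2 (j + 1) (by simp; omega), g3 j (by simpa using hj), hS.mem_nhds hu2] with w k1 k2 k3 k4 k5 k6
        refine ⟨?_, ?_, k1.1, k2.1, ?_⟩
        · exact ContinuousAt.comp (f := fun ε : ℂ => (((t, w), ε) : (ℂ × ℂ) × ℂ)) (g := A j) k3
            (hcε w)
        · exact ContinuousAt.comp (f := fun ε : ℂ => (((t, w), ε) : (ℂ × ℂ) × ℂ)) (g := A (j + 1))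
            k4 (hcε w)
        · filter_upwards [k5] with ε k7
          by_cases hε : ε = 0
          · subst hε
            have h1 := nb.sw.lt j hj _ (hin t g0 w k6)
            rw [Let_iff] at h1
            rw [mir_zero]
            show Q j ((t, w), 0) = _ ∧ Q (j + 1) ((t, w), 0) = _
            simp only [k1.1, k1.2, k2.1, k2.2]
            exact h1
          · rw [mir_gdiv hε]
            rw [Let_iff] at k7
            exact k7
    -- the height of the first line
    have hK : ∀ w ∈ S, AnalyticAt ℂ (fun w : ℂ => -(D 0 (t, w) ^ 2 *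
        Ker H (nat α 1 0 (t, w), w * D 0 (t, w)))) w := by
      intro w hw
      have hb := hin t g0 w hw
      have hcw : AnalyticAt ℂ (fun w : ℂ => ((t, w) : ℂ × ℂ)) w := by fun_prop
      have h1 : AnalyticAt ℂ (fun w : ℂ => D 0 (t, w)) w :=
        AnalyticAt.comp (g := D 0) (f := fun w : ℂ => ((t, w) : ℂ × ℂ)) (hDa 0 hn _ hb) hcw
      have h2 : AnalyticAt ℂ (fun w : ℂ => nat α 1 0 (t, w)) w :=
        AnalyticAt.comp (g := nat α 1 0) (f := fun w : ℂ => ((t, w) : ℂ × ℂ))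
          (nb.sw.aA 0 (Nat.zero_le _) _ hb) hcw
      have h3 : AnalyticAt ℂ (fun w : ℂ => (nat α 1 0 (t, w), w * D 0 (t, w))) w :=
        h2.prod (analyticAt_id.mul h1)
      have h4 : AnalyticAt ℂ (Ker H) (nat α 1 0 (t, w), w * D 0 (t, w)) := by
        refine analyticAt_Ker (hStr _ hb 0 (Nat.zero_le _)) ?_
        have h5 := nb.sw.mA 0 hn _ hb
        rw [hmid 0 hn _ hb] at h5
        exact h5
      exact ((h1.pow 2).mul (AnalyticAt.comp (g := Ker H)
        (f := fun w : ℂ => (nat α 1 0 (t, w), w * D 0 (t, w))) h4 h3)).neg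
    have hsn := scale_nat (S := S) hS hSc (w₂ := u2.2) h0S hu2 Df.w0 (h := H)
      (a := fun j w => nat α 1 j (t, w)) (q := fun j w => nat p 1 j (t, w))
      (D₀ := fun j w => D j (t, w)) (u := fun w => -(D 0 (t, w) ^ 2 *
        Ker H (nat α 1 0 (t, w), w * D 0 (t, w))))
      (Aph := fun j w ε => A j ((t, w), ε)) (Pph := fun j w ε => Q j ((t, w), ε))
      (g := fun j => gdiv H (G j)) (n := n) (c := D 0 (t, 0)) (hD0 0 hn _ (hin t g0 0 h0S))
      (fun w hw => AnalyticAt.comp (g := nat α 1 0) (f := fun w : ℂ => ((t, w) : ℂ × ℂ))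
          (nb.sw.aA 0 (Nat.zero_le _) _ (hin t g0 w hw)) (by fun_prop))
      (fun w hw => AnalyticAt.comp (g := nat α 1 n) (f := fun w : ℂ => ((t, w) : ℂ × ℂ))
          (nb.sw.aA n le_rfl _ (hin t g0 w hw)) (by fun_prop)) hK
      (fun w hw => by
        have h1 := (hGH 0 hn).hq w hw
        rw [h1, fin_eq_Ker]
        ring) ?_ (fun j hj => by
        rw [hDc j hj t g0, hDc 0 hn t g0]) hGH ?_ ?_ ?_
    · intro j hj
      have h1 := hsn j hj
      rw [gdiv_zero, nat_zero le_rfl] at h1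
      exact h1
    · simp only [zero_mul, Ker_zero, nat_zero le_rfl]
      have h1 := (hGH 0 hn).hr 0 h0S
      simp only [zero_mul, add_zero, nat_zero le_rfl] at h1
      have h2 := hD0 0 hn _ (hin t g0 0 h0S)
      exact neg_ne_zero.2 (mul_ne_zero (pow_ne_zero _ h2) (neg_ne_zero.2 (div_ne_zero h1 two_ne_zero)))
    · filter_upwards [g4] with w k1
      filter_upwards [k1] with ε k2 using k2.1
    · filter_upwards [g4] with w k1
      filter_upwards [k1] with ε k2 using k2.2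
    · filter_upwards [g5] with w k1
      filter_upwards [k1] with ε k2 using k2.1
  -- analytic continuation in the phase
  intro j hj
  have hαz : ∀ t ∈ ball (t1 : ℂ) r1, AnalyticAt ℂ (fun t : ℂ => α t 0) t := by
    intro t ht
    have hm : (t, (0 : ℂ)) ∈ WW 0 r e := by
      have := nb.mem _ (hin t ht 0 h0S) 0 (Nat.zero_le _)
      simpa using this
    exact AnalyticAt.comp (g := fun p : ℂ × ℂ => α p.1 p.2) (f := fun t : ℂ => ((t, 0) : ℂ × ℂ))
      (an_of_JD L.jα hm) (by fun_prop)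
  have hmz : ∀ t : ℂ, Fct.mid (nat α 1 j) (nat α 1 (j + 1)) (t, 0) = α t 0 := by
    intro t
    simp only [Fct.mid, nat_zero le_rfl]
    ring
  have hda : ∀ t ∈ ball (t1 : ℂ) r1, AnalyticAt ℂ (disp (G j)) (α t 0) := by
    intro t ht
    have h1 := Df.gA j hj _ (hin t ht 0 h0S)
    have h2 := Df.g0 j hj _ (hin t ht 0 h0S)
    have h3 := nb.sw.mA j hj _ (hin t ht 0 h0S)
    rw [hmz] at h1 h2 h3
    have h4 := analyticAt_gdiv h1 h2 h3
    have h5 : AnalyticAt ℂ (fun z : ℂ => gdiv H (G j) (z, 0)) (α t 0) :=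
      AnalyticAt.comp (g := gdiv H (G j)) (f := fun z : ℂ => (z, (0 : ℂ))) h4 (by fun_prop)
    simpa only [gdiv_zero] using h5
  have hcomp : AnalyticOnNhd ℂ (fun t : ℂ => disp (G j) (α t 0)) (ball (t1 : ℂ) r1) := fun t ht =>
    AnalyticAt.comp (g := disp (G j)) (f := fun t : ℂ => α t 0) (hda t ht) (hαz t ht)
  have hzero : EqOn (fun t : ℂ => disp (G j) (α t 0)) 0 (ball (t1 : ℂ) r1) := by
    refine hcomp.eqOn_zero_of_preconnected_of_eventuallyEq_zero (convex_ball _ _).isPreconnected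
      hu1 ?_
    filter_upwards [key] with t ht using ht j hj
  obtain ⟨c, hc, hcd⟩ := deriv_α T t1
  have hst : HasStrictDerivAt (fun t : ℂ => α t 0) c (t1 : ℂ) := by
    have h1 := (hαz (t1 : ℂ) (mem_ball_self hpos)).hasStrictDerivAt
    rwa [hcd.deriv] at h1
  have hmap := hst.map_nhds_eq hc
  rw [← hmap, Filter.eventually_map]
  filter_upwards [ball_mem_nhds (t1 : ℂ) hpos] with t ht using hzero ht

end Vale.Agent.P097.H288
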