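import Vale.Agent.P097.H288.NatWord
import Vale.Agent.P097.H456.Fct.F1

/-!
# Deformations of words (`Fct.Def`) : value at `ε = 0`, divided displacement
-/

namespace Vale.Agent.P097.H288

open Set Metric Topology Filter
open Vale.Agent.P097.H456 Vale.Agent.P097.H456.Fct

theorem Let_iff {G : ℂ → ℂ} {a q a' q' : ℂ} :
    Let G a q a' q' ↔ q = fin G a ((a' - a) / 2) ∧ q' = fout G a ((a' - a) / 2) := by
  have h1 : a + (a' - a) / 2 = (a + a') / 2 := by ring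
  simp only [Let, fin, fout, h1]

/-- local uniqueness of the reflected line -/
theorem reflect_unique {X : Type*} {l : Filter X} {h : ℂ → ℂ} {a₀ d₀ : ℂ}
    (hh : AnalyticAt ℂ h (a₀ + d₀)) (hr : rho h (a₀ + d₀) ≠ 0) (hs : Complex.sin d₀ ≠ 0)
    {a d d' : X → ℂ} (ha : Tendsto a l (𝓝 a₀)) (hd : Tendsto d l (𝓝 d₀)) (hd' : Tendsto d' l (𝓝 d₀))
    (he : ∀ᶠ x in l, fin h (a x) (d x) = fin h (a x) (d' x)) : ∀ᶠ x in l, d x = d' x := by
  set F : (ℂ × ℂ) × ℂ → ℂ := fun v => fin h v.1.1 v.2 - v.1.2 with hF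
  have hFa : AnalyticAt ℂ F ((a₀, fin h a₀ d₀), d₀) := by
    have h1 : AnalyticAt ℂ (fun v : (ℂ × ℂ) × ℂ => (v.1.1, v.2)) ((a₀, fin h a₀ d₀), d₀) :=
      (analyticAt_fst.comp (f := fun v : (ℂ × ℂ) × ℂ => v.1) analyticAt_fst).prod analyticAt_snd
    have h2 : AnalyticAt ℂ (fun v : (ℂ × ℂ) × ℂ => v.1.2) ((a₀, fin h a₀ d₀), d₀) :=
      analyticAt_snd.comp (f := fun v : (ℂ × ℂ) × ℂ => v.1) analyticAt_fst
    exact (AnalyticAt.comp (g := fun p : ℂ × ℂ => fin h p.1 p.2)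
      (f := fun v : (ℂ × ℂ) × ℂ => (v.1.1, v.2)) (analyticAt_fin hh) h1).sub h2
  have hF0 : F ((a₀, fin h a₀ d₀), d₀) = 0 := by simp [hF]
  have hF1 : deriv (fun y => F ((a₀, fin h a₀ d₀), y)) d₀ ≠ 0 := by
    have h1 : HasDerivAt (fun y => F ((a₀, fin h a₀ d₀), y))
        (-(rho h (a₀ + d₀) * Complex.sin d₀)) d₀ := (hasDerivAt_fin hh).sub_const _
    rw [h1.deriv]
    exact neg_ne_zero.2 (mul_ne_zero hr hs)
  obtain ⟨φ, hφ, hφ0, hφ1, hφ2⟩ := H650.ift_scalar hFa hF0 hF1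
  have hq : Tendsto (fun x => fin h (a x) (d x)) l (𝓝 (fin h a₀ d₀)) := by
    have h1 : Tendsto (fun p : ℂ × ℂ => fin h p.1 p.2) (𝓝 (a₀, d₀)) (𝓝 (fin h a₀ d₀)) :=
      (analyticAt_fin hh).continuousAt.tendsto
    have h2 : Tendsto (fun x => (a x, d x)) l (𝓝 (a₀, d₀)) := ha.prodMk_nhds hd
    have h3 := h1.comp h2
    simp only [Function.comp_def] at h3
    exact h3
  have t1 : Tendsto (fun x => ((a x, fin h (a x) (d x)), d x)) l (𝓝 ((a₀, fin h a₀ d₀), d₀)) :=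
    (ha.prodMk_nhds hq).prodMk_nhds hd
  have t2 : Tendsto (fun x => ((a x, fin h (a x) (d x)), d' x)) l (𝓝 ((a₀, fin h a₀ d₀), d₀)) :=
    (ha.prodMk_nhds hq).prodMk_nhds hd'
  filter_upwards [t1.eventually hφ2, t2.eventually hφ2, he] with x e1 e2 e3
  have e4 : φ (a x, fin h (a x) (d x)) = d x := e1 (by simp [hF])
  have e5 : φ (a x, fin h (a x) (d x)) = d' x := e2 (by simp [hF, e3])
  rw [← e4, e5]

/-- at `ε = 0` a deformation is the undeformed word -/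
theorem Def_zero {U : Set (ℂ × ℂ)} (hU : IsOpen U) {N n : ℕ} {M : ℕ → ℂ → ℂ}
    {a q : ℕ → ℂ × ℂ → ℂ} {G : ℕ → ℂ × ℂ → ℂ} {u2 : ℂ × ℂ} {A Q : ℕ → (ℂ × ℂ) × ℂ → ℂ}
    (sw : SWord U N n M a q) (D : Def U n M a q G u2 A Q) :
    ∀ j ≤ n, ∀ᶠ u in 𝓝 u2, A j (u, 0) = a j u ∧ Q j (u, 0) = q j u := by
  have hc : Tendsto (fun u : ℂ × ℂ => (u, (0 : ℂ))) (𝓝 u2) (𝓝 (u2, 0)) := by
    have : ContinuousAt (fun u : ℂ × ℂ => (u, (0 : ℂ))) u2 := by fun_prop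
    exact this
  intro j
  induction j with
  | zero =>
    intro _
    exact hc.eventually D.bs
  | succ j ih =>
    intro hj
    have hj' : j < n := by omega
    have ih := ih (by omega)
    have hm := sw.mA j hj' u2 D.mem
    have e0 : a j u2 + (a (j + 1) u2 - a j u2) / 2 = Fct.mid (a j) (a (j + 1)) u2 := by
      rw [Fct.mid]; ring
    have tA : ∀ i ≤ n, Tendsto (fun u => A i (u, 0)) (𝓝 u2) (𝓝 (a i u2)) := by
      intro i hi
      have := (D.AA i hi).continuousAt.tendsto.comp hc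
      rw [D.A0 i hi] at this
      exact this
    have ta : ∀ i ≤ n, Tendsto (a i) (𝓝 u2) (𝓝 (a i u2)) := fun i hi =>
      (sw.aA i hi u2 D.mem).continuousAt.tendsto
    have hg0 : ∀ᶠ z in 𝓝 (Fct.mid (a j) (a (j + 1)) u2), (fun z => G j (z, 0)) =ᶠ[𝓝 z] M j :=
      eventually_eventually_nhds.2 (D.g0 j hj' u2 D.mem)
    have tmid : Tendsto (fun u => (A j (u, 0) + A (j + 1) (u, 0)) / 2) (𝓝 u2)
        (𝓝 (Fct.mid (a j) (a (j + 1)) u2)) :=
      ((tA j (by omega)).add (tA (j + 1) hj)).div_const 2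
    have hlt := hc.eventually (D.lt j hj')
    have key : ∀ᶠ u in 𝓝 u2,
        Let (M j) (a j u) (q j u) (A (j + 1) (u, 0)) (Q (j + 1) (u, 0)) := by
      filter_upwards [hlt, tmid.eventually hg0, ih] with u h1 h2 h3
      rw [h3.1, h3.2] at h1
      rw [h3.1] at h2
      obtain ⟨h4, h5⟩ := h1
      simp only at h4 h5
      rw [h2.deriv_eq] at h4 h5
      have h6 : G j ((a j u + A (j + 1) (u, 0)) / 2, 0) = M j ((a j u + A (j + 1) (u, 0)) / 2) :=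
        h2.self_of_nhds
      rw [h6] at h4 h5
      exact ⟨h4, h5⟩
    have hd : ∀ᶠ u in 𝓝 u2, (A (j + 1) (u, 0) - a j u) / 2 = (a (j + 1) u - a j u) / 2 := by
      refine reflect_unique (h := M j) (a₀ := a j u2) (d₀ := (a (j + 1) u2 - a j u2) / 2)
        (a := a j) ?_ ?_ ?_ (ta j (by omega)) ?_ ?_ ?_
      · rw [e0]; exact hm
      · rw [e0]; exact sw.curv j hj' u2 D.mem
      · exact sw.sn j hj' u2 D.mem D.w0
      · exact ((tA (j + 1) hj).sub (ta j (by omega))).div_const 2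
      · exact ((ta (j + 1) hj).sub (ta j (by omega))).div_const 2
      · filter_upwards [key, hU.mem_nhds D.mem] with u h1 h2
        have h3 := sw.lt j hj' u h2
        rw [Let_iff] at h1 h3
        rw [← h1.1, ← h3.1]
    filter_upwards [key, hd, hU.mem_nhds D.mem] with u h1 h2 h3
    have h4 := sw.lt j hj' u h3
    rw [Let_iff] at h1 h4
    refine ⟨?_, ?_⟩
    · linear_combination 2 * h2
    · rw [h1.2, h4.2, h2]

/-! ## the divided displacement -/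

/-- `(G (z, ε) - h z) / ε` -/
noncomputable def gdiv (h : ℂ → ℂ) (G : ℂ × ℂ → ℂ) (p : ℂ × ℂ) : ℂ :=
  if p.2 = 0 then disp G p.1 else (G p - h p.1) / p.2

theorem gdiv_zero (h : ℂ → ℂ) (G : ℂ × ℂ → ℂ) (z : ℂ) : gdiv h G (z, 0) = disp G z := by
  simp [gdiv]

theorem mir_gdiv {h : ℂ → ℂ} {G : ℂ × ℂ → ℂ} {ε : ℂ} (hε : ε ≠ 0) :
    mir h (gdiv h G) ε = fun z => G (z, ε) := by
  funext z
  simp only [mir, gdiv, if_neg hε]
  field_simp
  ring

theorem mir_zero (h : ℂ → ℂ) (g : ℂ × ℂ → ℂ) : mir h g 0 = h := by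
  funext z
  simp [mir]

theorem analyticAt_gdiv {h : ℂ → ℂ} {G : ℂ × ℂ → ℂ} {z : ℂ} (hG : AnalyticAt ℂ G (z, 0))
    (h0 : ∀ᶠ z' in 𝓝 z, G (z', 0) = h z') (hh : AnalyticAt ℂ h z) :
    AnalyticAt ℂ (gdiv h G) (z, 0) := by
  have hF : AnalyticAt ℂ (fun p : ℂ × ℂ => G p - h p.1) (z, 0) :=
    hG.sub (AnalyticAt.comp (g := h) (f := fun p : ℂ × ℂ => p.1) hh analyticAt_fst)
  obtain ⟨Q, hQ, hQ1, hQ2⟩ := exists_div hF (h0.mono fun z' hz' => by simp [hz'])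
  refine hQ.congr ?_
  have h1 : ∀ᶠ p in 𝓝 (z, (0 : ℂ)), Q (p.1, 0) = disp G p.1 := by
    have h2 : ∀ᶠ x in 𝓝 z, AnalyticAt ℂ (fun p : ℂ × ℂ => G p - h p.1) (x, 0) := by
      have : ContinuousAt (fun x : ℂ => ((x, 0) : ℂ × ℂ)) z := by fun_prop
      exact this.eventually hF.eventually_analyticAt
    have h3 : ∀ᶠ x in 𝓝 z, Q (x, 0) = disp G x := by
      filter_upwards [hQ2, h2] with x e1 e2
      rw [e1]
      have e3 : HasDerivAt (fun ε : ℂ => ((x, ε) : ℂ × ℂ)) ((0 : ℂ), (1 : ℂ)) 0 :=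
        (hasDerivAt_const _ _).prodMk (hasDerivAt_id _)
      have e4 := e2.differentiableAt.hasFDerivAt.comp_hasDerivAt (0 : ℂ) e3
      have e5 : HasDerivAt (fun ε : ℂ => G (x, ε))
          (fderiv ℂ (fun p : ℂ × ℂ => G p - h p.1) (x, 0) (0, 1)) 0 := by
        have := e4.add_const (h x)
        refine this.congr_of_eventuallyEq (Eventually.of_forall fun ε => ?_)
        simp
      exact e5.deriv.symm
    exact (continuous_fst.tendsto (z, (0 : ℂ))).eventually h3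
  filter_upwards [hQ1, h1] with p e1 e2
  by_cases hp : p.2 = 0
  · have : p = (p.1, 0) := Prod.ext rfl hp
    rw [this, gdiv_zero, e2]
  · simp only [gdiv, if_neg hp]
    rw [smul_eq_mul] at e1
    rw [e1]
    field_simp

theorem ev3 {P : (ℂ × ℂ) × ℂ → Prop} {u2 : ℂ × ℂ} (h : ∀ᶠ v in 𝓝 (u2, (0 : ℂ)), P v) :
    ∀ᶠ t in 𝓝 u2.1, ∀ᶠ w in 𝓝 u2.2, ∀ᶠ ε in 𝓝 (0 : ℂ), P ((t, w), ε) := by
  rw [nhds_prod_eq] at h
  have h1 := h.curry
  rw [show u2 = (u2.1, u2.2) from rfl, nhds_prod_eq] at h1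
  exact h1.curry

theorem ev2 {P : ℂ × ℂ → Prop} {u2 : ℂ × ℂ} (h : ∀ᶠ u in 𝓝 u2, P u) :
    ∀ᶠ t in 𝓝 u2.1, ∀ᶠ w in 𝓝 u2.2, P (t, w) := by
  rw [show u2 = (u2.1, u2.2) from rfl, nhds_prod_eq] at h
  exact h.curry

end Vale.Agent.P097.H288
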