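import Vale.Agent.P097.H288.GermOps

/-!
# (S1) The grazing letter in scaled variables

Lines `(A, P)`, `P = h A - w² U`, mirror `h + ε g(·, ε)`, `ε = e w²`, half deflection `d = w D`.
The reflection law is `EqG = 0`, the outgoing line is `(A + 2 w D, h (A + 2 w D) - w² UG)`.
-/

namespace Vale.Agent.P097.H288

open Set Metric Topology Filter

/-- the mirror `h + ε g(·, ε)` -/
noncomputable def mir (h : ℂ → ℂ) (g : ℂ × ℂ → ℂ) (ε : ℂ) (z : ℂ) : ℂ := h z + ε * g (z, ε)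

/-- incoming perturbation term -/
noncomputable def pin (g : ℂ × ℂ → ℂ) (ε A d : ℂ) : ℂ :=
  g (A + d, ε) * Complex.cos d - d1 g (A + d, ε) * Complex.sin d

/-- outgoing perturbation term -/
noncomputable def pout (g : ℂ × ℂ → ℂ) (ε A d : ℂ) : ℂ :=
  g (A + d, ε) * Complex.cos d + d1 g (A + d, ε) * Complex.sin d

/-- scaled reflection law -/
noncomputable def EqG (h : ℂ → ℂ) (g : ℂ × ℂ → ℂ) (w e A U D : ℂ) : ℂ :=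
  U + D ^ 2 * Ker h (A, w * D) + e * pin g (e * w ^ 2) A (w * D)

/-- scaled height of the outgoing line -/
noncomputable def UG (h : ℂ → ℂ) (g : ℂ × ℂ → ℂ) (w e A D : ℂ) : ℂ :=
  -(D ^ 2 * Ker h (A + 2 * (w * D), -(w * D))) - e * pout g (e * w ^ 2) A (w * D)

theorem hasDerivAt_mir {h : ℂ → ℂ} {g : ℂ × ℂ → ℂ} {ε z : ℂ} (hh : AnalyticAt ℂ h z)
    (hg : AnalyticAt ℂ g (z, ε)) : HasDerivAt (mir h g ε) (deriv h z + ε * d1 g (z, ε)) z := by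
  have h1 : AnalyticAt ℂ (fun z : ℂ => g (z, ε)) z :=
    AnalyticAt.comp (g := g) (f := fun z : ℂ => (z, ε)) hg (by fun_prop)
  exact hh.differentiableAt.hasDerivAt.add (h1.differentiableAt.hasDerivAt.const_mul ε)

theorem fin_mir {h : ℂ → ℂ} {g : ℂ × ℂ → ℂ} {ε A d : ℂ} (hh : AnalyticAt ℂ h (A + d))
    (hg : AnalyticAt ℂ g (A + d, ε)) : fin (mir h g ε) A d = fin h A d + ε * pin g ε A d := by
  simp only [fin, pin, (hasDerivAt_mir hh hg).deriv, mir]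
  ring

theorem fout_mir {h : ℂ → ℂ} {g : ℂ × ℂ → ℂ} {ε A d : ℂ} (hh : AnalyticAt ℂ h (A + d))
    (hg : AnalyticAt ℂ g (A + d, ε)) : fout (mir h g ε) A d = fout h A d + ε * pout g ε A d := by
  simp only [fout, pout, (hasDerivAt_mir hh hg).deriv, mir]
  ring

/-- the scaled law is the reflection law -/
theorem EqG_iff {h : ℂ → ℂ} {g : ℂ × ℂ → ℂ} {w e A P D : ℂ} (hw : w ≠ 0)
    (hh : AnalyticAt ℂ h (A + w * D)) (hg : AnalyticAt ℂ g (A + w * D, e * w ^ 2)) :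
    EqG h g w e A ((h A - P) / w ^ 2) D = 0 ↔ P = fin (mir h g (e * w ^ 2)) A (w * D) := by
  have hw2 : w ^ 2 ≠ 0 := pow_ne_zero _ hw
  rw [fin_mir hh hg, fin_eq_Ker, EqG]
  generalize pin g (e * w ^ 2) A (w * D) = X
  generalize Ker h (A, w * D) = Y
  constructor
  · intro h1
    have h2 : h A - P + w ^ 2 * (D ^ 2 * Y + e * X) = 0 := by
      have h3 : w ^ 2 * ((h A - P) / w ^ 2 + D ^ 2 * Y + e * X) = 0 := by rw [h1, mul_zero]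
      rw [add_assoc, mul_add, mul_div_cancel₀ _ hw2] at h3
      exact h3
    linear_combination -h2
  · intro h1
    rw [h1]
    field_simp
    ring

theorem UG_eq {h : ℂ → ℂ} {g : ℂ × ℂ → ℂ} {w e A D : ℂ} (hw : w ≠ 0)
    (hh : AnalyticAt ℂ h (A + w * D)) (hg : AnalyticAt ℂ g (A + w * D, e * w ^ 2)) :
    UG h g w e A D = (h (A + 2 * (w * D)) - fout (mir h g (e * w ^ 2)) A (w * D)) / w ^ 2 := by
  have hw2 : w ^ 2 ≠ 0 := pow_ne_zero _ hw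
  rw [fout_mir hh hg, fout_eq_Ker, UG]
  generalize pout g (e * w ^ 2) A (w * D) = X
  generalize Ker h (A + 2 * (w * D), -(w * D)) = Y
  generalize h (A + 2 * (w * D)) = Z
  field_simp
  ring

theorem EqG_zero (h : ℂ → ℂ) (g : ℂ × ℂ → ℂ) (e A U D : ℂ) :
    EqG h g 0 e A U D = U - rho h A * D ^ 2 / 2 + e * g (A, 0) := by
  simp only [EqG, pin, zero_mul, Ker_zero, add_zero, Complex.cos_zero, Complex.sin_zero]
  ring_nf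

theorem UG_zero (h : ℂ → ℂ) (g : ℂ × ℂ → ℂ) (e A D : ℂ) :
    UG h g 0 e A D = rho h A * D ^ 2 / 2 - e * g (A, 0) := by
  simp only [UG, pout, zero_mul, mul_zero, neg_zero, Ker_zero, add_zero, Complex.cos_zero,
    Complex.sin_zero]
  ring_nf

/-! ## joint analyticity -/

theorem analyticAt_EqG {h : ℂ → ℂ} {g : ℂ × ℂ → ℂ} {w A U D : ℂ} (h1 : AnalyticAt ℂ h A)
    (h2 : AnalyticAt ℂ h (A + w * D)) (hg : AnalyticAt ℂ g (A + w * D, 0)) :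
    AnalyticAt ℂ (fun q : ((ℂ × ℂ) × (ℂ × ℂ)) × ℂ =>
      EqG h g q.1.1.1 q.1.1.2 q.1.2.1 q.1.2.2 q.2) (((w, 0), (A, U)), D) := by
  set q₀ : ((ℂ × ℂ) × (ℂ × ℂ)) × ℂ := (((w, 0), (A, U)), D) with hq₀
  have aw : AnalyticAt ℂ (fun q : ((ℂ × ℂ) × (ℂ × ℂ)) × ℂ => q.1.1.1) q₀ :=
    ((ContinuousLinearMap.fst ℂ ℂ ℂ).comp ((ContinuousLinearMap.fst ℂ (ℂ × ℂ) (ℂ × ℂ)).comp
      (ContinuousLinearMap.fst ℂ ((ℂ × ℂ) × (ℂ × ℂ)) ℂ))).analyticAt _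
  have ae : AnalyticAt ℂ (fun q : ((ℂ × ℂ) × (ℂ × ℂ)) × ℂ => q.1.1.2) q₀ :=
    ((ContinuousLinearMap.snd ℂ ℂ ℂ).comp ((ContinuousLinearMap.fst ℂ (ℂ × ℂ) (ℂ × ℂ)).comp
      (ContinuousLinearMap.fst ℂ ((ℂ × ℂ) × (ℂ × ℂ)) ℂ))).analyticAt _
  have aA : AnalyticAt ℂ (fun q : ((ℂ × ℂ) × (ℂ × ℂ)) × ℂ => q.1.2.1) q₀ :=
    ((ContinuousLinearMap.fst ℂ ℂ ℂ).comp ((ContinuousLinearMap.snd ℂ (ℂ × ℂ) (ℂ × ℂ)).comp
      (ContinuousLinearMap.fst ℂ ((ℂ × ℂ) × (ℂ × ℂ)) ℂ))).analyticAt _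
  have aU : AnalyticAt ℂ (fun q : ((ℂ × ℂ) × (ℂ × ℂ)) × ℂ => q.1.2.2) q₀ :=
    ((ContinuousLinearMap.snd ℂ ℂ ℂ).comp ((ContinuousLinearMap.snd ℂ (ℂ × ℂ) (ℂ × ℂ)).comp
      (ContinuousLinearMap.fst ℂ ((ℂ × ℂ) × (ℂ × ℂ)) ℂ))).analyticAt _
  have aD : AnalyticAt ℂ (fun q : ((ℂ × ℂ) × (ℂ × ℂ)) × ℂ => q.2) q₀ :=
    (ContinuousLinearMap.snd ℂ ((ℂ × ℂ) × (ℂ × ℂ)) ℂ).analyticAt _
  have ad := aw.mul aD
  have aK : AnalyticAt ℂ (fun q : ((ℂ × ℂ) × (ℂ × ℂ)) × ℂ =>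
      Ker h (q.1.2.1, q.1.1.1 * q.2)) q₀ :=
    AnalyticAt.comp (g := Ker h) (f := fun q : ((ℂ × ℂ) × (ℂ × ℂ)) × ℂ =>
      (q.1.2.1, q.1.1.1 * q.2)) (analyticAt_Ker h1 h2) (aA.prod ad)
  have aeps := ae.mul (aw.pow 2)
  have apt : AnalyticAt ℂ (fun q : ((ℂ × ℂ) × (ℂ × ℂ)) × ℂ =>
      (q.1.2.1 + q.1.1.1 * q.2, q.1.1.2 * q.1.1.1 ^ 2)) q₀ := (aA.add ad).prod aeps
  have hgq : AnalyticAt ℂ g (A + w * D, 0 * w ^ 2) := by rwa [zero_mul]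
  have ag : AnalyticAt ℂ (fun q : ((ℂ × ℂ) × (ℂ × ℂ)) × ℂ =>
      g (q.1.2.1 + q.1.1.1 * q.2, q.1.1.2 * q.1.1.1 ^ 2)) q₀ :=
    AnalyticAt.comp (g := g) (f := fun q : ((ℂ × ℂ) × (ℂ × ℂ)) × ℂ =>
      (q.1.2.1 + q.1.1.1 * q.2, q.1.1.2 * q.1.1.1 ^ 2)) hgq apt
  have ag1 : AnalyticAt ℂ (fun q : ((ℂ × ℂ) × (ℂ × ℂ)) × ℂ =>
      d1 g (q.1.2.1 + q.1.1.1 * q.2, q.1.1.2 * q.1.1.1 ^ 2)) q₀ :=
    AnalyticAt.comp (g := d1 g) (f := fun q : ((ℂ × ℂ) × (ℂ × ℂ)) × ℂ =>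
      (q.1.2.1 + q.1.1.1 * q.2, q.1.1.2 * q.1.1.1 ^ 2)) (analyticAt_d1 hgq) apt
  have acos : AnalyticAt ℂ (fun q : ((ℂ × ℂ) × (ℂ × ℂ)) × ℂ => Complex.cos (q.1.1.1 * q.2)) q₀ :=
    AnalyticAt.comp (g := Complex.cos) (f := fun q : ((ℂ × ℂ) × (ℂ × ℂ)) × ℂ => q.1.1.1 * q.2)
      (by fun_prop) ad
  have asin : AnalyticAt ℂ (fun q : ((ℂ × ℂ) × (ℂ × ℂ)) × ℂ => Complex.sin (q.1.1.1 * q.2)) q₀ :=
    AnalyticAt.comp (g := Complex.sin) (f := fun q : ((ℂ × ℂ) × (ℂ × ℂ)) × ℂ => q.1.1.1 * q.2)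
      (by fun_prop) ad
  exact (aU.add ((aD.pow 2).mul aK)).add (ae.mul ((ag.mul acos).sub (ag1.mul asin)))

theorem JA.UG {h : ℂ → ℂ} {g : ℂ × ℂ → ℂ} {A D : ℂ → ℂ → ℂ} {w : ℂ} (hA : JA A w) (hD : JA D w)
    (h2 : AnalyticAt ℂ h (A w 0 + w * D w 0)) (h3 : AnalyticAt ℂ h (A w 0 + 2 * (w * D w 0)))
    (hg : AnalyticAt ℂ g (A w 0 + w * D w 0, 0)) :
    JA (fun w e => UG h g w e (A w e) (D w e)) w := by
  have hd : JA (fun w e => w * D w e) w := (JA.w w).mul hD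
  have hA' : JA (fun w e => A w e + 2 * (w * D w e)) w := hA.add ((JA.const 2 w).mul hd)
  have hK : JA (fun w e => Ker h (A w e + 2 * (w * D w e), -(w * D w e))) w := by
    refine hA'.comp2 hd.neg (analyticAt_Ker h3 ?_)
    have : A w 0 + 2 * (w * D w 0) + -(w * D w 0) = A w 0 + w * D w 0 := by ring
    rw [this]
    exact h2
  have heps : JA (fun w e => e * w ^ 2) w := (JA.e w).mul ((JA.w w).pow2)
  have hpt : JA (fun w e => A w e + w * D w e) w := hA.add hd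
  have hgq : AnalyticAt ℂ g (A w 0 + w * D w 0, 0 * w ^ 2) := by rwa [zero_mul]
  have hgJ : JA (fun w e => g (A w e + w * D w e, e * w ^ 2)) w := hpt.comp2 heps hgq
  have hgJ1 : JA (fun w e => d1 g (A w e + w * D w e, e * w ^ 2)) w :=
    hpt.comp2 heps (analyticAt_d1 hgq)
  exact ((hD.pow2.mul hK).neg).sub ((JA.e w).mul ((hgJ.mul hd.cos).add (hgJ1.mul hd.sin)))

/-- **(S1)** the grazing letter for families of germs -/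
theorem G_step {S : Set ℂ} (hS : IsOpen S) {A U : ℂ → ℂ → ℂ} (hA : ∀ w ∈ S, JA A w)
    (hU : ∀ w ∈ S, JA U w) {h : ℂ → ℂ} {g : ℂ × ℂ → ℂ} {D₀ : ℂ → ℂ}
    (hDc : ∀ w ∈ S, ContinuousAt D₀ w) (h1 : ∀ w ∈ S, AnalyticAt ℂ h (A w 0))
    (h2 : ∀ w ∈ S, AnalyticAt ℂ h (A w 0 + w * D₀ w))
    (hg : ∀ w ∈ S, AnalyticAt ℂ g (A w 0 + w * D₀ w, 0))
    (hr : ∀ w ∈ S, rho h (A w 0 + w * D₀ w) ≠ 0) (hD : ∀ w ∈ S, D₀ w ≠ 0)
    (hs : ∀ w ∈ S, w ≠ 0 → Complex.sin (w * D₀ w) ≠ 0)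
    (h0 : ∀ w ∈ S, U w 0 + D₀ w ^ 2 * Ker h (A w 0, w * D₀ w) = 0) :
    ∃ D : ℂ → ℂ → ℂ, ∀ w ∈ S, JA D w ∧ D w 0 = D₀ w ∧
      (∀ᶠ e in 𝓝 (0 : ℂ), EqG h g w e (A w e) (U w e) (D w e) = 0) ∧
      ∀ D' : ℂ → ℂ, ContinuousAt D' 0 → D' 0 = D₀ w →
        (∀ᶠ e in 𝓝 (0 : ℂ), EqG h g w e (A w e) (U w e) (D' e) = 0) →
          ∀ᶠ e in 𝓝 (0 : ℂ), D' e = D w e := by
  have hs' : ∀ w ∈ S, JA (fun w e => (A w e, U w e)) w := fun w hw => (hA w hw).prodMk (hU w hw)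
  refine JA.ift hS hs' (Φ := fun q : ((ℂ × ℂ) × (ℂ × ℂ)) × ℂ =>
      EqG h g q.1.1.1 q.1.1.2 q.1.2.1 q.1.2.2 q.2) (D₀ := D₀) hDc
    (fun w hw => analyticAt_EqG (h1 w hw) (h2 w hw) (hg w hw)) (fun w hw => ?_) (fun w hw => ?_)
  · show EqG h g w 0 (A w 0) (U w 0) (D₀ w) = 0
    rw [EqG, zero_mul, add_zero]
    exact h0 w hw
  · obtain ⟨c, hc, hc'⟩ := hasDerivAt_KerD (h1 w hw) (h2 w hw) (hr w hw) (hD w hw) (hs w hw)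
    have h5 : HasDerivAt (fun y => EqG h g w 0 (A w 0) (U w 0) y) c (D₀ w) := by
      have h6 : (fun y => EqG h g w 0 (A w 0) (U w 0) y) =
          fun y => U w 0 + y ^ 2 * Ker h (A w 0, w * y) := by
        funext y
        rw [EqG, zero_mul, add_zero]
      rw [h6]
      exact hc'.const_add _
    have h6 : deriv (fun y => EqG h g w 0 (A w 0) (U w 0) y) (D₀ w) = c := h5.deriv
    show deriv (fun y => EqG h g w 0 (A w 0) (U w 0) y) (D₀ w) ≠ 0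
    rw [h6]
    exact hc

end Vale.Agent.P097.H288
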