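import Vale.Agent.P097.H650.Patch

/-!
# Families of germs

`f : ℂ → ℂ → E`, `w ↦ (e ↦ f w e)` is regarded as a family of germs at `e = 0`.  `JA f w₀` : near
`w₀` it is given by a function analytic at `(w₀, 0)`, but for every `w` only for `e` close to `0`
(depending on `w`).  Composition, implicit function theorem, identity theorem.
-/

namespace Vale.Agent.P097.H288

open Set Metric Topology Filter

variable {E G : Type*} [NormedAddCommGroup E] [NormedSpace ℂ E] [NormedAddCommGroup G]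
  [NormedSpace ℂ G]

/-- jointly analytic family of germs -/
def JA (f : ℂ → ℂ → E) (w₀ : ℂ) : Prop :=
  ∃ g : ℂ × ℂ → E, AnalyticAt ℂ g (w₀, 0) ∧ ∀ᶠ w in 𝓝 w₀, ∀ᶠ e in 𝓝 (0 : ℂ), f w e = g (w, e)

theorem eventually_slice {P : ℂ × ℂ → Prop} {w₀ : ℂ} (h : ∀ᶠ p in 𝓝 (w₀, (0 : ℂ)), P p) :
    ∀ᶠ w in 𝓝 w₀, ∀ᶠ e in 𝓝 (0 : ℂ), P (w, e) := by
  rw [nhds_prod_eq] at h
  exact h.curry

theorem JA.rep {f : ℂ → ℂ → E} {w₀ : ℂ} {g : ℂ × ℂ → E} (hg : AnalyticAt ℂ g (w₀, 0))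
    (h : ∀ᶠ w in 𝓝 w₀, ∀ᶠ e in 𝓝 (0 : ℂ), f w e = g (w, e)) : JA f w₀ := ⟨g, hg, h⟩

theorem JA.congr {f g : ℂ → ℂ → E} {w₀ : ℂ} (hf : JA f w₀)
    (h : ∀ᶠ w in 𝓝 w₀, ∀ᶠ e in 𝓝 (0 : ℂ), g w e = f w e) : JA g w₀ := by
  obtain ⟨k, hk, h1⟩ := hf
  refine ⟨k, hk, ?_⟩
  filter_upwards [h, h1] with w h2 h3
  filter_upwards [h2, h3] with e h4 h5
  rw [h4, h5]

theorem JA.of_analytic {g : ℂ × ℂ → E} {w₀ : ℂ} (hg : AnalyticAt ℂ g (w₀, 0)) :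
    JA (fun w e => g (w, e)) w₀ :=
  ⟨g, hg, Eventually.of_forall fun _ => Eventually.of_forall fun _ => rfl⟩

/-- functions of `w` alone -/
theorem JA.of_left {g : ℂ → E} {w₀ : ℂ} (hg : AnalyticAt ℂ g w₀) : JA (fun w _ => g w) w₀ :=
  JA.of_analytic (g := fun p => g p.1) (AnalyticAt.comp (g := g) (f := fun p : ℂ × ℂ => p.1)
    hg analyticAt_fst)

omit [NormedAddCommGroup E] [NormedSpace ℂ E] in
theorem JA.eq_zero {f : ℂ → ℂ → E} {w₀ : ℂ} {g : ℂ × ℂ → E}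
    (h : ∀ᶠ w in 𝓝 w₀, ∀ᶠ e in 𝓝 (0 : ℂ), f w e = g (w, e)) : f w₀ 0 = g (w₀, 0) :=
  h.self_of_nhds.self_of_nhds

omit [NormedAddCommGroup E] [NormedSpace ℂ E] in
theorem JA.eventually_zero {f : ℂ → ℂ → E} {w₀ : ℂ} {g : ℂ × ℂ → E}
    (h : ∀ᶠ w in 𝓝 w₀, ∀ᶠ e in 𝓝 (0 : ℂ), f w e = g (w, e)) :
    ∀ᶠ w in 𝓝 w₀, f w 0 = g (w, 0) := by
  filter_upwards [h] with w hw using hw.self_of_nhds

/-- composition with an analytic function -/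
theorem JA.comp {f : ℂ → ℂ → E} {w₀ : ℂ} (hf : JA f w₀) {Φ : (ℂ × ℂ) × E → G}
    (hΦ : AnalyticAt ℂ Φ ((w₀, 0), f w₀ 0)) : JA (fun w e => Φ ((w, e), f w e)) w₀ := by
  obtain ⟨g, hg, h⟩ := hf
  rw [JA.eq_zero h] at hΦ
  refine ⟨fun p => Φ (p, g p), ?_, ?_⟩
  · exact AnalyticAt.comp (g := Φ) (f := fun p : ℂ × ℂ => (p, g p)) hΦ (analyticAt_id.prod hg)
  · filter_upwards [h] with w hw
    filter_upwards [hw] with e he
    rw [he]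

theorem JA.prodMk {f : ℂ → ℂ → E} {k : ℂ → ℂ → G} {w₀ : ℂ} (hf : JA f w₀) (hk : JA k w₀) :
    JA (fun w e => (f w e, k w e)) w₀ := by
  obtain ⟨g, hg, h⟩ := hf
  obtain ⟨g', hg', h'⟩ := hk
  refine ⟨fun p => (g p, g' p), hg.prod hg', ?_⟩
  filter_upwards [h, h'] with w hw hw'
  filter_upwards [hw, hw'] with e he he'
  rw [he, he']

theorem JA.continuousAt {f : ℂ → ℂ → E} {w₀ : ℂ} (hf : JA f w₀) : ContinuousAt (f w₀) 0 := by
  obtain ⟨g, hg, h⟩ := hf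
  have h1 : ContinuousAt (fun e : ℂ => g (w₀, e)) 0 :=
    ContinuousAt.comp (f := fun e : ℂ => (w₀, e)) (g := g) hg.continuousAt (by fun_prop)
  exact h1.congr (h.self_of_nhds.mono fun e he => he.symm)

theorem JA.analyticAt {f : ℂ → ℂ → E} {w₀ : ℂ} (hf : JA f w₀) : AnalyticAt ℂ (f w₀) 0 := by
  obtain ⟨g, hg, h⟩ := hf
  have h1 : AnalyticAt ℂ (fun e : ℂ => g (w₀, e)) 0 :=
    AnalyticAt.comp (f := fun e : ℂ => (w₀, e)) (g := g) hg (by fun_prop)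
  exact h1.congr (h.self_of_nhds.mono fun e he => he.symm)

/-- a function analytic at `(w₀, 0)` which vanishes, for `w` in sets accumulating with interior at
`w₀`, near `e = 0`, vanishes near `(w₀, 0)` -/
theorem zero_of_slices [CompleteSpace E] {g : ℂ × ℂ → E} {w₀ : ℂ} (hg : AnalyticAt ℂ g (w₀, 0))
    (h : ∃ᶠ w in 𝓝 w₀, ∀ᶠ w' in 𝓝 w, ∀ᶠ e in 𝓝 (0 : ℂ), g (w', e) = 0) :
    ∀ᶠ p in 𝓝 (w₀, (0 : ℂ)), g p = 0 := by
  obtain ⟨r, hr, hb⟩ := Metric.eventually_nhds_iff_ball.1 hg.eventually_analyticAt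
  obtain ⟨w, h1, h2⟩ := (h.and_eventually (ball_mem_nhds w₀ hr)).exists
  have hsl : ∀ w' ∈ ball w₀ r, (∀ᶠ e in 𝓝 (0 : ℂ), g (w', e) = 0) →
      ∀ e ∈ ball (0 : ℂ) r, g (w', e) = 0 := by
    intro w' hw' h3
    have h4 : AnalyticOnNhd ℂ (fun e => g (w', e)) (ball 0 r) := fun e he =>
      AnalyticAt.comp (g := g) (f := fun e : ℂ => (w', e))
        (hb _ (by rw [← ball_prod_same]; exact ⟨hw', he⟩)) (by fun_prop)
    exact h4.eqOn_zero_of_preconnected_of_eventuallyEq_zero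
      (convex_ball _ _).isPreconnected (mem_ball_self hr) h3
  have h5 : g =ᶠ[𝓝 (w, (0 : ℂ))] 0 := by
    have h6 : ∀ᶠ p in 𝓝 (w, (0 : ℂ)), p.1 ∈ ball w₀ r ∧
        (∀ᶠ e in 𝓝 (0 : ℂ), g (p.1, e) = 0) ∧ p.2 ∈ ball (0 : ℂ) r := by
      refine ((continuous_fst.tendsto (w, (0 : ℂ))).eventually (isOpen_ball.mem_nhds h2)).and
        (((continuous_fst.tendsto (w, (0 : ℂ))).eventually h1).and
          ((continuous_snd.tendsto (w, (0 : ℂ))).eventually (ball_mem_nhds _ hr)))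
    filter_upwards [h6] with p hp
    exact hsl p.1 hp.1 hp.2.1 p.2 hp.2.2
  have h7 : EqOn g 0 (ball (w₀, (0 : ℂ)) r) := by
    refine AnalyticOnNhd.eqOn_zero_of_preconnected_of_eventuallyEq_zero (z₀ := (w, (0 : ℂ))) hb
      (convex_ball _ _).isPreconnected ?_ h5
    rw [← ball_prod_same]
    exact ⟨h2, mem_ball_self hr⟩
  filter_upwards [ball_mem_nhds _ hr] with p hp using h7 hp

/-- **identity theorem** -/
theorem JA.ident [CompleteSpace E] {f : ℂ → ℂ → E} {S : Set ℂ} (hS : IsPreconnected S)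
    (hf : ∀ w ∈ S, JA f w) {w₂ : ℂ} (h2 : w₂ ∈ S)
    (h : ∀ᶠ w in 𝓝 w₂, ∀ᶠ e in 𝓝 (0 : ℂ), f w e = 0) :
    ∀ w ∈ S, ∀ᶠ w' in 𝓝 w, ∀ᶠ e in 𝓝 (0 : ℂ), f w' e = 0 := by
  set u : Set ℂ := {w | ∀ᶠ w' in 𝓝 w, ∀ᶠ e in 𝓝 (0 : ℂ), f w' e = 0} with hu
  have huo : IsOpen u := by
    rw [isOpen_iff_mem_nhds]
    intro w hw
    exact (eventually_eventually_nhds.2 hw)
  refine hS.subset_of_closure_inter_subset huo ⟨w₂, h2, h⟩ ?_
  rintro w ⟨h3, h4⟩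
  obtain ⟨g, hg, h5⟩ := hf w h4
  have h6 : ∃ᶠ w' in 𝓝 w, w' ∈ u := mem_closure_iff_frequently.1 h3
  have h7 : ∀ᶠ p in 𝓝 (w, (0 : ℂ)), g p = 0 := by
    refine zero_of_slices hg ((h6.and_eventually (eventually_eventually_nhds.2 h5)).mono ?_)
    rintro w' ⟨h8, h9⟩
    filter_upwards [h8, h9] with w'' h10 h11
    filter_upwards [h10, h11] with e h12 h13
    rw [← h13, h12]
  show ∀ᶠ w' in 𝓝 w, ∀ᶠ e in 𝓝 (0 : ℂ), f w' e = 0
  filter_upwards [h5, eventually_slice h7] with w' h8 h9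
  filter_upwards [h8, h9] with e h10 h11
  rw [h10, h11]

/-- two families of germs which agree near one point agree everywhere -/
theorem JA.ident_eq [CompleteSpace E] {f k : ℂ → ℂ → E} {S : Set ℂ} (hS : IsPreconnected S)
    (hf : ∀ w ∈ S, JA f w) (hk : ∀ w ∈ S, JA k w) {w₂ : ℂ} (h2 : w₂ ∈ S)
    (h : ∀ᶠ w in 𝓝 w₂, ∀ᶠ e in 𝓝 (0 : ℂ), f w e = k w e) :
    ∀ w ∈ S, ∀ᶠ w' in 𝓝 w, ∀ᶠ e in 𝓝 (0 : ℂ), f w' e = k w' e := by
  have hd : ∀ w ∈ S, JA (fun w e => f w e - k w e) w := by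
    intro w hw
    obtain ⟨g, hg, h1⟩ := hf w hw
    obtain ⟨g', hg', h1'⟩ := hk w hw
    refine ⟨fun p => g p - g' p, hg.sub hg', ?_⟩
    filter_upwards [h1, h1'] with w' h4 h5
    filter_upwards [h4, h5] with e h6 h7
    rw [h6, h7]
  have h3 := JA.ident hS hd h2 (by
    filter_upwards [h] with w hw
    filter_upwards [hw] with e he
    rw [he, sub_self])
  intro w hw
  filter_upwards [h3 w hw] with w' h4
  filter_upwards [h4] with e h5 using sub_eq_zero.1 h5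

/-- **implicit function theorem for families of germs** -/
theorem JA.ift [CompleteSpace E] {S : Set ℂ} (hS : IsOpen S) {s : ℂ → ℂ → E}
    (hs : ∀ w ∈ S, JA s w) {Φ : ((ℂ × ℂ) × E) × ℂ → ℂ} {D₀ : ℂ → ℂ}
    (hD : ∀ w ∈ S, ContinuousAt D₀ w)
    (hΦ : ∀ w ∈ S, AnalyticAt ℂ Φ (((w, 0), s w 0), D₀ w))
    (h0 : ∀ w ∈ S, Φ (((w, 0), s w 0), D₀ w) = 0)
    (h1 : ∀ w ∈ S, deriv (fun y => Φ (((w, 0), s w 0), y)) (D₀ w) ≠ 0) :
    ∃ D : ℂ → ℂ → ℂ, ∀ w ∈ S, JA D w ∧ D w 0 = D₀ w ∧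
      (∀ᶠ e in 𝓝 (0 : ℂ), Φ (((w, e), s w e), D w e) = 0) ∧
      ∀ D' : ℂ → ℂ, ContinuousAt D' 0 → D' 0 = D₀ w →
        (∀ᶠ e in 𝓝 (0 : ℂ), Φ (((w, e), s w e), D' e) = 0) →
          ∀ᶠ e in 𝓝 (0 : ℂ), D' e = D w e := by
  have key : ∀ w ∈ S, ∃ φ : ℂ × ℂ → ℂ, AnalyticAt ℂ φ (w, 0) ∧ φ (w, 0) = D₀ w ∧
      (∀ᶠ e in 𝓝 (0 : ℂ), Φ (((w, e), s w e), φ (w, e)) = 0) ∧
      ∀ᶠ w' in 𝓝 w, ∀ D' : ℂ → ℂ, ContinuousAt D' 0 → D' 0 = D₀ w' →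
        (∀ᶠ e in 𝓝 (0 : ℂ), Φ (((w', e), s w' e), D' e) = 0) →
          ∀ᶠ e in 𝓝 (0 : ℂ), D' e = φ (w', e) := by
    intro w hw
    obtain ⟨g, hg, hge⟩ := hs w hw
    have hgz := JA.eq_zero hge
    set F : (ℂ × ℂ) × ℂ → ℂ := fun q => Φ ((q.1, g q.1), q.2) with hF
    have hFa : AnalyticAt ℂ F ((w, 0), D₀ w) := by
      have h2 := hΦ w hw
      rw [hgz] at h2
      refine AnalyticAt.comp (g := Φ) (f := fun q : (ℂ × ℂ) × ℂ => ((q.1, g q.1), q.2)) h2 ?_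
      refine AnalyticAt.prod (analyticAt_fst.prod ?_) analyticAt_snd
      exact AnalyticAt.comp (g := g) (f := fun q : (ℂ × ℂ) × ℂ => q.1) hg analyticAt_fst
    have hF0 : F ((w, 0), D₀ w) = 0 := by
      rw [hF]; simp only; rw [← hgz]; exact h0 w hw
    have hF1 : deriv (fun y => F ((w, 0), y)) (D₀ w) ≠ 0 := by
      have := h1 w hw
      rw [hgz] at this
      exact this
    obtain ⟨φ, hφ, hφ0, hφ1, hφ2⟩ := H650.ift_scalar hFa hF0 hF1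
    refine ⟨φ, hφ, hφ0, ?_, ?_⟩
    · have h3 := (eventually_slice hφ1).self_of_nhds
      filter_upwards [h3, hge.self_of_nhds] with e h4 h5
      rw [h5]
      exact h4
    · have h3 : ∀ᶠ w' in 𝓝 w, ∀ᶠ q in 𝓝 (((w', 0), D₀ w') : (ℂ × ℂ) × ℂ),
          F q = 0 → φ q.1 = q.2 := by
        have h4 : ContinuousAt (fun w' : ℂ => (((w', 0), D₀ w') : (ℂ × ℂ) × ℂ)) w :=
          ContinuousAt.prodMk (by fun_prop) (hD w hw)
        exact h4.eventually (eventually_eventually_nhds.2 hφ2)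
      filter_upwards [h3, hge] with w' h4 h5 D' hc hc0 hz
      have h6 : Tendsto (fun e : ℂ => (((w', e), D' e) : (ℂ × ℂ) × ℂ)) (𝓝 0)
          (𝓝 ((w', 0), D₀ w')) := by
        have h7 : ContinuousAt (fun e : ℂ => (((w', e), D' e) : (ℂ × ℂ) × ℂ)) 0 :=
          ContinuousAt.prodMk (by fun_prop) hc
        have h8 := h7.tendsto
        rw [hc0] at h8
        exact h8
      filter_upwards [h6.eventually h4, h5, hz] with e h7 h8 h9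
      refine (h7 ?_).symm
      show Φ (((w', e), g (w', e)), D' e) = 0
      rw [← h8]
      exact h9
  choose! φ hφ hφ0 hφ1 hφ2 using key
  have hcont : ∀ w ∈ S, ContinuousAt (fun e => φ w (w, e)) 0 := fun w hw =>
    ContinuousAt.comp (f := fun e : ℂ => (w, e)) (g := φ w) (hφ w hw).continuousAt (by fun_prop)
  refine ⟨fun w e => φ w (w, e), fun w hw => ⟨?_, hφ0 w hw, hφ1 w hw, ?_⟩⟩
  · refine ⟨φ w, hφ w hw, ?_⟩
    filter_upwards [hφ2 w hw, hS.mem_nhds hw] with w' h2 hw'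
    exact h2 (fun e => φ w' (w', e)) (hcont w' hw') (hφ0 w' hw') (hφ1 w' hw')
  · intro D' hc hc0 hz
    exact (hφ2 w hw).self_of_nhds D' hc hc0 hz

end Vale.Agent.P097.H288
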