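import Vale.Agent.P097.H288.Div

/-!
# The tangency expansion of a support function

`h (a + d) cos d - h' (a + d) sin d = h a + d² K (a, d)`, `K` analytic, `K (a, 0) = -ρ(a)/2`,
`ρ = h + h''`, and `2 K + d K_d = -ρ(a + d) sin d / d`.
-/

namespace Vale.Agent.P097.H288

open Set Metric Topology Filter

/-- support number of the incoming line (normal angle `a`), vertex with normal angle `a + d` -/
noncomputable def fin (h : ℂ → ℂ) (a d : ℂ) : ℂ :=
  h (a + d) * Complex.cos d - deriv h (a + d) * Complex.sin d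

/-- support number of the outgoing line (normal angle `a + 2 d`) -/
noncomputable def fout (h : ℂ → ℂ) (a d : ℂ) : ℂ :=
  h (a + d) * Complex.cos d + deriv h (a + d) * Complex.sin d

/-- radius of curvature -/
noncomputable def rho (h : ℂ → ℂ) (z : ℂ) : ℂ := h z + deriv (deriv h) z

theorem fout_eq (h : ℂ → ℂ) (a d : ℂ) : fout h a d = fin h (a + 2 * d) (-d) := by
  have h1 : a + 2 * d + -d = a + d := by ring
  simp only [fout, fin, h1, Complex.cos_neg, Complex.sin_neg]
  ring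

theorem fin_zero (h : ℂ → ℂ) (a : ℂ) : fin h a 0 = h a := by simp [fin]

theorem hasDerivAt_fin {h : ℂ → ℂ} {a d : ℂ} (hh : AnalyticAt ℂ h (a + d)) :
    HasDerivAt (fin h a) (-(rho h (a + d) * Complex.sin d)) d := by
  have h1 : HasDerivAt (fun d => h (a + d)) (deriv h (a + d)) d := by
    have := hh.differentiableAt.hasDerivAt.comp_const_add a d
    exact this
  have h2 : HasDerivAt (fun d => deriv h (a + d)) (deriv (deriv h) (a + d)) d := by
    have := hh.deriv.differentiableAt.hasDerivAt.comp_const_add a d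
    exact this
  have h3 := (h1.fun_mul (Complex.hasDerivAt_cos d)).fun_sub (h2.fun_mul (Complex.hasDerivAt_sin d))
  refine h3.congr_deriv ?_
  rw [rho]
  ring

theorem analyticAt_fin {h : ℂ → ℂ} {a₀ d₀ : ℂ} (hh : AnalyticAt ℂ h (a₀ + d₀)) :
    AnalyticAt ℂ (fun p : ℂ × ℂ => fin h p.1 p.2) (a₀, d₀) := by
  have h1 : AnalyticAt ℂ (fun p : ℂ × ℂ => h (p.1 + p.2)) (a₀, d₀) :=
    AnalyticAt.comp (g := h) (f := fun p : ℂ × ℂ => p.1 + p.2) hh (analyticAt_fst.add analyticAt_snd)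
  have h2 : AnalyticAt ℂ (fun p : ℂ × ℂ => deriv h (p.1 + p.2)) (a₀, d₀) :=
    AnalyticAt.comp (g := deriv h) (f := fun p : ℂ × ℂ => p.1 + p.2) hh.deriv
      (analyticAt_fst.add analyticAt_snd)
  have h3 : AnalyticAt ℂ (fun p : ℂ × ℂ => Complex.cos p.2) (a₀, d₀) := by
    have : AnalyticAt ℂ (fun p : ℂ × ℂ => p.2) (a₀, d₀) := analyticAt_snd
    exact AnalyticAt.comp (g := Complex.cos) (f := fun p : ℂ × ℂ => p.2) (by fun_prop) this
  have h4 : AnalyticAt ℂ (fun p : ℂ × ℂ => Complex.sin p.2) (a₀, d₀) := by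
    have : AnalyticAt ℂ (fun p : ℂ × ℂ => p.2) (a₀, d₀) := analyticAt_snd
    exact AnalyticAt.comp (g := Complex.sin) (f := fun p : ℂ × ℂ => p.2) (by fun_prop) this
  exact (h1.mul h3).sub (h2.mul h4)

/-- **(S0)** the kernel of the tangency expansion -/
theorem exists_kernel {h : ℂ → ℂ} {a₀ : ℂ} (hh : AnalyticAt ℂ h a₀) :
    ∃ K : ℂ × ℂ → ℂ, AnalyticAt ℂ K (a₀, 0) ∧
      (∀ᶠ p in 𝓝 (a₀, (0 : ℂ)), fin h p.1 p.2 = h p.1 + p.2 ^ 2 * K p) ∧
      ∀ᶠ a in 𝓝 a₀, K (a, 0) = -(rho h a / 2) := by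
  -- first division
  have hF : AnalyticAt ℂ (fun p : ℂ × ℂ => fin h p.1 p.2 - h p.1) (a₀, 0) := by
    refine (analyticAt_fin (by rwa [add_zero])).sub ?_
    exact AnalyticAt.comp (g := h) (f := fun p : ℂ × ℂ => p.1) hh analyticAt_fst
  obtain ⟨Q, hQ, hQ1, hQ2⟩ := exists_div (E := ℂ) (G := ℂ) hF
    (Eventually.of_forall fun a => by simp [fin_zero])
  have hQ3 : ∀ᶠ a in 𝓝 a₀, Q (a, 0) = 0 := by
    have h1 : ∀ᶠ a in 𝓝 a₀, AnalyticAt ℂ h a := hh.eventually_analyticAt
    filter_upwards [hQ2, h1] with a h2 h3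
    rw [h2]
    have h4 : HasFDerivAt (fun p : ℂ × ℂ => fin h p.1 p.2 - h p.1)
        (fderiv ℂ (fun p : ℂ × ℂ => fin h p.1 p.2 - h p.1) (a, 0)) (a, 0) := by
      refine DifferentiableAt.hasFDerivAt (AnalyticAt.differentiableAt ?_)
      refine (analyticAt_fin (by rwa [add_zero])).sub ?_
      exact AnalyticAt.comp (g := h) (f := fun p : ℂ × ℂ => p.1) h3 analyticAt_fst
    have h5 : HasDerivAt (fun z : ℂ => ((a, z) : ℂ × ℂ)) ((0 : ℂ), (1 : ℂ)) 0 :=
      (hasDerivAt_const _ _).prodMk (hasDerivAt_id _)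
    have h6 := h4.comp_hasDerivAt (0 : ℂ) h5
    have h7 : HasDerivAt (fun z => fin h a z - h a) (-(rho h (a + 0) * Complex.sin 0)) 0 :=
      (hasDerivAt_fin (by rwa [add_zero])).sub_const _
    have h8 := h6.unique h7
    rw [h8]
    simp
  obtain ⟨K, hK, hK1, hK2⟩ := exists_div (E := ℂ) (G := ℂ) hQ hQ3
  have hK3 : ∀ᶠ p in 𝓝 (a₀, (0 : ℂ)), fin h p.1 p.2 = h p.1 + p.2 ^ 2 * K p := by
    filter_upwards [hQ1, hK1] with p h1 h2
    rw [h2, smul_eq_mul, smul_eq_mul] at h1
    linear_combination h1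
  refine ⟨K, hK, hK3, ?_⟩
  have h1 : ∀ᶠ a in 𝓝 a₀, AnalyticAt ℂ h a := hh.eventually_analyticAt
  have h2 : ∀ᶠ a in 𝓝 a₀, AnalyticAt ℂ K (a, 0) := by
    have : ContinuousAt (fun a : ℂ => ((a, 0) : ℂ × ℂ)) a₀ := by fun_prop
    exact this.eventually hK.eventually_analyticAt
  have h3 : ∀ᶠ a in 𝓝 a₀, ∀ᶠ d in 𝓝 (0 : ℂ), fin h a d = h a + d ^ 2 * K (a, d) := by
    rw [nhds_prod_eq] at hK3
    exact hK3.curry
  filter_upwards [h1, h2, h3] with a h4 h5 h6
  -- derivative of both sides, divided by `d`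
  have h7 : ∀ᶠ d in 𝓝 (0 : ℂ), AnalyticAt ℂ K (a, d) := by
    have : ContinuousAt (fun d : ℂ => ((a, d) : ℂ × ℂ)) 0 := by fun_prop
    exact this.eventually h5.eventually_analyticAt
  have h8 : ∀ᶠ d in 𝓝 (0 : ℂ), AnalyticAt ℂ h (a + d) := by
    have h9 : ContinuousAt (fun d : ℂ => a + d) 0 := by fun_prop
    have h10 : ∀ᶠ z in 𝓝 (a + 0), AnalyticAt ℂ h z := by
      rw [add_zero]; exact h4.eventually_analyticAt
    exact h9.eventually h10
  set k : ℂ → ℂ := fun d => K (a, d) with hk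
  have hka : AnalyticAt ℂ k 0 :=
    AnalyticAt.comp (g := K) (f := fun d : ℂ => (a, d)) h5 (by fun_prop)
  have h9 : ∀ᶠ d in 𝓝 (0 : ℂ), -(rho h (a + d) * Complex.sin d) = 2 * d * k d + d ^ 2 * deriv k d := by
    filter_upwards [h6.eventually_nhds, hka.eventually_analyticAt, h8] with d h10 h11 h12
    have h13 := hasDerivAt_fin h12
    have h14 : HasDerivAt (fun d => h a + d ^ 2 * k d) (2 * d * k d + d ^ 2 * deriv k d) d := by
      have h15 := ((hasDerivAt_pow 2 d).fun_mul h11.differentiableAt.hasDerivAt).const_add (h a)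
      refine h15.congr_deriv ?_
      push_cast
      ring
    exact (h13.congr_of_eventuallyEq (EventuallyEq.symm h10)).unique h14
  have h10 : ∀ᶠ d in 𝓝[≠] (0 : ℂ), -(rho h (a + d) * (Complex.sin d / d)) =
      2 * k d + d * deriv k d := by
    filter_upwards [h9.filter_mono nhdsWithin_le_nhds, self_mem_nhdsWithin] with d h11 h12
    have h13 : d ≠ 0 := h12
    field_simp
    linear_combination h11
  have h11 : Tendsto (fun d : ℂ => -(rho h (a + d) * (Complex.sin d / d))) (𝓝[≠] 0)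
      (𝓝 (-(rho h a * 1))) := by
    refine Tendsto.neg (Tendsto.mul ?_ ?_)
    · have h12 : ContinuousAt (fun d : ℂ => rho h (a + d)) 0 := by
        have h13 : ContinuousAt (rho h) (a + 0) := by
          rw [add_zero]
          exact (h4.add h4.deriv.deriv).continuousAt
        exact ContinuousAt.comp (f := fun d : ℂ => a + d) (g := rho h) h13 (by fun_prop)
      have h14 := h12.tendsto
      rw [add_zero] at h14
      exact h14.mono_left nhdsWithin_le_nhds
    · have h12 := (Complex.hasDerivAt_sin 0).tendsto_slope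
      rw [Complex.cos_zero] at h12
      refine h12.congr' ?_
      filter_upwards with d
      simp [slope_def_field]
  have h12 : Tendsto (fun d : ℂ => 2 * k d + d * deriv k d) (𝓝[≠] 0)
      (𝓝 (2 * k 0 + 0 * deriv k 0)) := by
    have h13 : ContinuousAt (fun d : ℂ => 2 * k d + d * deriv k d) 0 :=
      (continuousAt_const.mul hka.continuousAt).add (continuousAt_id.mul hka.deriv.continuousAt)
    exact h13.tendsto.mono_left nhdsWithin_le_nhds
  have h13 := tendsto_nhds_unique (h11.congr' h10) h12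
  show k 0 = _
  linear_combination (-(1 : ℂ) / 2) * h13

end Vale.Agent.P097.H288
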