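import Vale.Agent.P097.H288.Germ
import Vale.Agent.P097.H288.Kern

/-!
# Operations on families of germs, the kernel function, the scaled grazing letter
-/

namespace Vale.Agent.P097.H288

open Set Metric Topology Filter

/-! ## operations -/

theorem JA.w (w₀ : ℂ) : JA (fun w _ => w) w₀ := JA.of_left (g := fun w => w) analyticAt_id

theorem JA.e (w₀ : ℂ) : JA (fun _ e => e) w₀ :=
  JA.of_analytic (g := fun p : ℂ × ℂ => p.2) analyticAt_snd

theorem JA.const (c w₀ : ℂ) : JA (fun _ _ => c) w₀ :=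
  JA.of_analytic (g := fun _ : ℂ × ℂ => c) analyticAt_const

theorem JA.add {f k : ℂ → ℂ → ℂ} {w₀ : ℂ} (hf : JA f w₀) (hk : JA k w₀) :
    JA (fun w e => f w e + k w e) w₀ := by
  obtain ⟨g, hg, h1⟩ := hf
  obtain ⟨g', hg', h2⟩ := hk
  refine ⟨fun p => g p + g' p, hg.add hg', ?_⟩
  filter_upwards [h1, h2] with w h3 h4
  filter_upwards [h3, h4] with e h5 h6
  rw [h5, h6]

theorem JA.sub {f k : ℂ → ℂ → ℂ} {w₀ : ℂ} (hf : JA f w₀) (hk : JA k w₀) :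
    JA (fun w e => f w e - k w e) w₀ := by
  obtain ⟨g, hg, h1⟩ := hf
  obtain ⟨g', hg', h2⟩ := hk
  refine ⟨fun p => g p - g' p, hg.sub hg', ?_⟩
  filter_upwards [h1, h2] with w h3 h4
  filter_upwards [h3, h4] with e h5 h6
  rw [h5, h6]

theorem JA.mul {f k : ℂ → ℂ → ℂ} {w₀ : ℂ} (hf : JA f w₀) (hk : JA k w₀) :
    JA (fun w e => f w e * k w e) w₀ := by
  obtain ⟨g, hg, h1⟩ := hf
  obtain ⟨g', hg', h2⟩ := hk
  refine ⟨fun p => g p * g' p, hg.mul hg', ?_⟩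
  filter_upwards [h1, h2] with w h3 h4
  filter_upwards [h3, h4] with e h5 h6
  rw [h5, h6]

theorem JA.neg {f : ℂ → ℂ → ℂ} {w₀ : ℂ} (hf : JA f w₀) : JA (fun w e => -f w e) w₀ := by
  obtain ⟨g, hg, h1⟩ := hf
  refine ⟨fun p => -g p, hg.neg, ?_⟩
  filter_upwards [h1] with w h3
  filter_upwards [h3] with e h5
  rw [h5]

theorem JA.inv {f : ℂ → ℂ → ℂ} {w₀ : ℂ} (hf : JA f w₀) (h0 : f w₀ 0 ≠ 0) :
    JA (fun w e => (f w e)⁻¹) w₀ := by
  obtain ⟨g, hg, h1⟩ := hf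
  rw [JA.eq_zero h1] at h0
  refine ⟨fun p => (g p)⁻¹, hg.inv h0, ?_⟩
  filter_upwards [h1] with w h3
  filter_upwards [h3] with e h5
  rw [h5]

theorem JA.comp1 {f : ℂ → ℂ → ℂ} {w₀ : ℂ} (hf : JA f w₀) {Φ : ℂ → ℂ}
    (hΦ : AnalyticAt ℂ Φ (f w₀ 0)) : JA (fun w e => Φ (f w e)) w₀ :=
  hf.comp (Φ := fun q : (ℂ × ℂ) × ℂ => Φ q.2)
    (AnalyticAt.comp (g := Φ) (f := fun q : (ℂ × ℂ) × ℂ => q.2) hΦ analyticAt_snd)

theorem JA.comp2 {f k : ℂ → ℂ → ℂ} {w₀ : ℂ} (hf : JA f w₀) (hk : JA k w₀) {Φ : ℂ × ℂ → ℂ}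
    (hΦ : AnalyticAt ℂ Φ (f w₀ 0, k w₀ 0)) : JA (fun w e => Φ (f w e, k w e)) w₀ :=
  (hf.prodMk hk).comp (Φ := fun q : (ℂ × ℂ) × (ℂ × ℂ) => Φ q.2)
    (AnalyticAt.comp (g := Φ) (f := fun q : (ℂ × ℂ) × (ℂ × ℂ) => q.2) hΦ analyticAt_snd)

theorem JA.cos {f : ℂ → ℂ → ℂ} {w₀ : ℂ} (hf : JA f w₀) : JA (fun w e => Complex.cos (f w e)) w₀ :=
  hf.comp1 (Φ := Complex.cos) (by fun_prop)

theorem JA.sin {f : ℂ → ℂ → ℂ} {w₀ : ℂ} (hf : JA f w₀) : JA (fun w e => Complex.sin (f w e)) w₀ :=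
  hf.comp1 (Φ := Complex.sin) (by fun_prop)

theorem JA.pow2 {f : ℂ → ℂ → ℂ} {w₀ : ℂ} (hf : JA f w₀) : JA (fun w e => f w e ^ 2) w₀ := by
  have := hf.mul hf
  simpa only [sq] using this

/-! ## the partial derivative -/

/-- derivative with respect to the first variable -/
noncomputable def d1 (g : ℂ × ℂ → ℂ) (p : ℂ × ℂ) : ℂ := deriv (fun z => g (z, p.2)) p.1

theorem analyticAt_d1 {g : ℂ × ℂ → ℂ} {p₀ : ℂ × ℂ} (hg : AnalyticAt ℂ g p₀) :
    AnalyticAt ℂ (d1 g) p₀ := by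
  have h1 : AnalyticAt ℂ (fun p => fderiv ℂ g p ((1 : ℂ), (0 : ℂ))) p₀ :=
    AnalyticAt.comp (g := fun L : (ℂ × ℂ) →L[ℂ] ℂ => L ((1 : ℂ), (0 : ℂ)))
      ((ContinuousLinearMap.apply ℂ ℂ ((1 : ℂ), (0 : ℂ))).analyticAt _) hg.fderiv
  refine h1.congr ?_
  filter_upwards [hg.eventually_analyticAt] with p hp
  have h2 : HasDerivAt (fun z : ℂ => ((z, p.2) : ℂ × ℂ)) ((1 : ℂ), (0 : ℂ)) p.1 :=
    (hasDerivAt_id _).prodMk (hasDerivAt_const _ _)
  have h3 : HasFDerivAt g (fderiv ℂ g p) (p.1, p.2) := hp.differentiableAt.hasFDerivAt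
  exact (h3.comp_hasDerivAt p.1 h2).deriv.symm

/-! ## the kernel as a global function -/

/-- `fin h a d = h a + d ^ 2 * Ker h (a, d)` -/
noncomputable def Ker (h : ℂ → ℂ) (p : ℂ × ℂ) : ℂ :=
  if p.2 = 0 then -(rho h p.1 / 2) else (fin h p.1 p.2 - h p.1) / p.2 ^ 2

theorem fin_eq_Ker (h : ℂ → ℂ) (a d : ℂ) : fin h a d = h a + d ^ 2 * Ker h (a, d) := by
  by_cases hd : d = 0
  · subst hd; simp [fin_zero]
  · have hd2 : d ^ 2 ≠ 0 := pow_ne_zero _ hd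
    simp only [Ker, if_neg hd]
    field_simp
    ring

theorem fout_eq_Ker (h : ℂ → ℂ) (a d : ℂ) :
    fout h a d = h (a + 2 * d) + d ^ 2 * Ker h (a + 2 * d, -d) := by
  rw [fout_eq, fin_eq_Ker]
  ring

theorem Ker_zero (h : ℂ → ℂ) (a : ℂ) : Ker h (a, 0) = -(rho h a / 2) := by simp [Ker]

theorem analyticAt_Ker {h : ℂ → ℂ} {a₀ d₀ : ℂ} (h1 : AnalyticAt ℂ h a₀)
    (h2 : AnalyticAt ℂ h (a₀ + d₀)) : AnalyticAt ℂ (Ker h) (a₀, d₀) := by
  by_cases hd : d₀ = 0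
  · subst hd
    obtain ⟨K, hK, hK1, hK2⟩ := exists_kernel h1
    refine hK.congr ?_
    have h3 : ∀ᶠ p in 𝓝 (a₀, (0 : ℂ)), K (p.1, 0) = -(rho h p.1 / 2) :=
      (continuous_fst.tendsto (a₀, (0 : ℂ))).eventually hK2
    filter_upwards [hK1, h3] with p h4 h5
    by_cases hp : p.2 = 0
    · have : p = (p.1, 0) := Prod.ext rfl hp
      rw [this, h5, Ker_zero]
    · simp only [Ker, if_neg hp, h4]
      field_simp
      ring
  · have h3 : AnalyticAt ℂ (fun p : ℂ × ℂ => (fin h p.1 p.2 - h p.1) / p.2 ^ 2) (a₀, d₀) := by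
      refine AnalyticAt.div ((analyticAt_fin h2).sub ?_) (analyticAt_snd.pow 2)
        (pow_ne_zero _ hd)
      exact AnalyticAt.comp (g := h) (f := fun p : ℂ × ℂ => p.1) h1 analyticAt_fst
    refine h3.congr ?_
    have h4 : ∀ᶠ p in 𝓝 (a₀, d₀), p.2 ≠ 0 :=
      (continuous_snd.tendsto (a₀, d₀)).eventually_ne hd
    filter_upwards [h4] with p hp
    simp only [Ker, if_neg hp]

/-- derivative of `D ↦ D² K (a, w D)` -/
theorem hasDerivAt_KerD {h : ℂ → ℂ} {a w D : ℂ} (h1 : AnalyticAt ℂ h a)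
    (h2 : AnalyticAt ℂ h (a + w * D)) (hr : rho h (a + w * D) ≠ 0) (hD : D ≠ 0)
    (hs : w ≠ 0 → Complex.sin (w * D) ≠ 0) :
    ∃ c : ℂ, c ≠ 0 ∧ HasDerivAt (fun D => D ^ 2 * Ker h (a, w * D)) c D := by
  by_cases hw : w = 0
  · subst hw
    refine ⟨-(D * rho h a), neg_ne_zero.2 (mul_ne_zero hD (by simpa using hr)), ?_⟩
    have h3 : HasDerivAt (fun D : ℂ => D ^ 2 * (-(rho h a / 2))) (2 * D * (-(rho h a / 2))) D := by
      have := (hasDerivAt_pow 2 D).mul_const (-(rho h a / 2))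
      refine this.congr_deriv ?_
      push_cast
      ring
    refine (h3.congr_deriv (by ring)).congr_of_eventuallyEq ?_
    filter_upwards with D
    simp [Ker_zero]
  · refine ⟨-(rho h (a + w * D) * Complex.sin (w * D)) / w,
      div_ne_zero (neg_ne_zero.2 (mul_ne_zero hr (hs hw))) hw, ?_⟩
    have h3 : HasDerivAt (fun D : ℂ => fin h a (w * D))
        (-(rho h (a + w * D) * Complex.sin (w * D)) * w) D := by
      have h4 := hasDerivAt_fin h2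
      have h5 : HasDerivAt (fun D : ℂ => w * D) w D := by
        simpa using (hasDerivAt_id D).const_mul w
      exact HasDerivAt.comp D h4 h5
    have h4 : HasDerivAt (fun D : ℂ => (fin h a (w * D) - h a) / w ^ 2)
        (-(rho h (a + w * D) * Complex.sin (w * D)) * w / w ^ 2) D :=
      (h3.sub_const _).div_const _
    refine (h4.congr_deriv (by field_simp)).congr_of_eventuallyEq ?_
    filter_upwards with D
    rw [fin_eq_Ker]
    field_simp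
    ring

end Vale.Agent.P097.H288
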