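import Vale.Agent.P097.H288.Stage

/-!
# (S2), (S3) Deformations of a grazing word with fixed outer lines (row F2c)
-/

namespace Vale.Agent.P097.H288

open Set Metric Topology Filter

/-- hypotheses on one grazing letter: base lines `(a, q) → (a', q')`, mirror `h + ε g(·, ε)`,
half deflection `w D₀ w`, physical lines `Aph`, `Pph` near `w₂` -/
structure GHyp (S : Set ℂ) (w₂ : ℂ) (h : ℂ → ℂ) (g : ℂ × ℂ → ℂ) (D₀ a q a' q' : ℂ → ℂ)
    (Aph Pph Aph' Pph' : ℂ → ℂ → ℂ) : Prop where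
  Dc : ∀ w ∈ S, ContinuousAt D₀ w
  ac : ContinuousAt a 0
  h1 : ∀ w ∈ S, AnalyticAt ℂ h (a w)
  h2 : ∀ w ∈ S, AnalyticAt ℂ h (a w + w * D₀ w)
  h3 : ∀ w ∈ S, AnalyticAt ℂ h (a w + 2 * (w * D₀ w))
  hg : ∀ w ∈ S, AnalyticAt ℂ g (a w + w * D₀ w, 0)
  hr : ∀ w ∈ S, rho h (a w + w * D₀ w) ≠ 0
  hD : ∀ w ∈ S, D₀ w ≠ 0
  hs : ∀ w ∈ S, w ≠ 0 → Complex.sin (w * D₀ w) ≠ 0
  ha' : ∀ w ∈ S, a' w = a w + 2 * (w * D₀ w)
  hq : ∀ w ∈ S, q w = fin h (a w) (w * D₀ w)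
  hq' : ∀ w ∈ S, q' w = fout h (a w) (w * D₀ w)
  hph : ∀ᶠ w in 𝓝 w₂, ContinuousAt (Aph w) 0 ∧ ContinuousAt (Aph' w) 0 ∧ Aph w 0 = a w ∧
      Aph' w 0 = a' w ∧ ∀ᶠ ε in 𝓝 (0 : ℂ),
        Pph w ε = fin (mir h g ε) (Aph w ε) ((Aph' w ε - Aph w ε) / 2) ∧
        Pph' w ε = fout (mir h g ε) (Aph w ε) ((Aph' w ε - Aph w ε) / 2)

theorem Stage.G' {S : Set ℂ} (hS : IsOpen S) {w₂ : ℂ} (hz : (0 : ℂ) ∈ S) (h2S : S ∈ 𝓝 w₂)
    (hw₂ : w₂ ≠ 0) {h : ℂ → ℂ} {a q a' q' : ℂ → ℂ} {Aph Pph Aph' Pph' A U : ℂ → ℂ → ℂ}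
    {u ν : ℂ} {b : ℂ → ℂ} (st : Stage S w₂ h a q Aph Pph A U u ν b) {g : ℂ × ℂ → ℂ} {D₀ : ℂ → ℂ}
    (H : GHyp S w₂ h g D₀ a q a' q' Aph Pph Aph' Pph') :
    ∃ A' U' : ℂ → ℂ → ℂ, Stage S w₂ h a' q' Aph' Pph' A' U' u ν
      (fun e => b e + 2 * D₀ 0 * (1 + (ν + g (a 0, 0)) / u * e) ^ (1 / 2 : ℂ)) :=
  st.G hS hz h2S hw₂ H.Dc H.ac H.h1 H.h2 H.h3 H.hg H.hr H.hD H.hs H.ha' H.hq H.hq' H.hph

/-- **(S2)** `m` grazing letters on the same curve -/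
theorem word_G {S : Set ℂ} (hS : IsOpen S) {w₂ : ℂ} (hz : (0 : ℂ) ∈ S) (h2S : S ∈ 𝓝 w₂)
    (hw₂ : w₂ ≠ 0) {h : ℂ → ℂ} {a q D₀ : ℕ → ℂ → ℂ} {Aph Pph : ℕ → ℂ → ℂ → ℂ}
    {A U : ℂ → ℂ → ℂ} {u ν : ℂ} {b : ℂ → ℂ} {g : ℕ → ℂ × ℂ → ℂ}
    (st : Stage S w₂ h (a 0) (q 0) (Aph 0) (Pph 0) A U u ν b) (n : ℕ)
    (H : ∀ j < n, GHyp S w₂ h (g j) (D₀ j) (a j) (q j) (a (j + 1)) (q (j + 1)) (Aph j) (Pph j)
      (Aph (j + 1)) (Pph (j + 1))) :
    ∃ A' U' : ℂ → ℂ → ℂ, Stage S w₂ h (a n) (q n) (Aph n) (Pph n) A' U' u ν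
      (fun e => b e + ∑ j ∈ Finset.range n,
        2 * D₀ j 0 * (1 + (ν + g j (a j 0, 0)) / u * e) ^ (1 / 2 : ℂ)) := by
  induction n with
  | zero => exact ⟨A, U, by simpa using st⟩
  | succ n ih =>
    obtain ⟨A', U', st'⟩ := ih fun j hj => H j (by omega)
    obtain ⟨A'', U'', st''⟩ := st'.G' hS hz h2S hw₂ (H n (Nat.lt_succ_self n))
    refine ⟨A'', U'', ?_⟩
    have : (fun e : ℂ => b e + ∑ j ∈ Finset.range (n + 1),
        2 * D₀ j 0 * (1 + (ν + g j (a j 0, 0)) / u * e) ^ (1 / 2 : ℂ)) =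
        fun e => (b e + ∑ j ∈ Finset.range n,
          2 * D₀ j 0 * (1 + (ν + g j (a j 0, 0)) / u * e) ^ (1 / 2 : ℂ)) +
          2 * D₀ n 0 * (1 + (ν + g n (a n 0, 0)) / u * e) ^ (1 / 2 : ℂ) := by
      funext e
      rw [Finset.sum_range_succ]
      ring
    rw [this]
    exact st''

/-- a sum of square roots with equal coefficients is constant only if it is trivial -/
theorem all_zero_germ {n : ℕ} {c C : ℂ} (hc : c ≠ 0) {β : ℕ → ℂ}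
    (h : ∀ᶠ e in 𝓝 (0 : ℂ), ∑ j ∈ Finset.range n, c * (1 + β j * e) ^ (1 / 2 : ℂ) = C) :
    ∀ j < n, β j = 0 := by
  classical
  intro j₀ hj₀
  by_contra hne
  have h1 := H845.sum_sqrt_germ (ι := Option ℕ) (insert none ((Finset.range n).map
    Function.Embedding.some)) (fun i => i.elim (-C) (fun _ => c)) (fun i => i.elim 0 β)
    (g := fun x => (1 + x) ^ (1 / 2 : ℂ)) H845.analyticAt_sqrt_one_add
    (Eventually.of_forall fun x => H845.sqrt_one_add_sq x) (by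
      have h2 : ∀ᶠ e in 𝓝[≠] (0 : ℂ), ∑ i ∈ insert none ((Finset.range n).map
          Function.Embedding.some), (i.elim (-C) (fun _ => c) : ℂ) *
            (1 + (i.elim 0 β : ℂ) * e) ^ (1 / 2 : ℂ) = 0 := by
        filter_upwards [h.filter_mono nhdsWithin_le_nhds] with e he
        rw [Finset.sum_insert (by simp), Finset.sum_map]
        simp only [Option.elim_none, Function.Embedding.some_apply, Option.elim_some, zero_mul,
          add_zero, Complex.one_cpow, mul_one]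
        rw [he]
        ring
      exact h2.frequently) (β j₀)
  have h2 : (insert none ((Finset.range n).map Function.Embedding.some)).filter
      (fun i => (i.elim 0 β : ℂ) = β j₀) =
      ((Finset.range n).filter (fun j => β j = β j₀)).map Function.Embedding.some := by
    ext i
    cases i with
    | none => simp [Ne.symm hne]
    | some j => simp
  rw [h2, Finset.sum_map] at h1
  simp only [Function.Embedding.some_apply, Option.elim_some, Finset.sum_const, nsmul_eq_mul] at h1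
  have h3 := (mul_eq_zero.1 h1).resolve_right hc
  have h4 : ((Finset.range n).filter (fun j => β j = β j₀)).card = 0 := by exact_mod_cast h3
  rw [Finset.card_eq_zero] at h4
  have h5 : j₀ ∈ (Finset.range n).filter (fun j => β j = β j₀) := by simp [hj₀]
  rw [h4] at h5
  simp at h5

/-- **(S3) = row F2c.**  A deformation of the mirrors of the natural word which keeps the outer
lines is trivial to first order at the point of tangency `a 0 0`. -/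
theorem scale_nat {S : Set ℂ} (hS : IsOpen S) (hSc : IsPreconnected S) {w₂ : ℂ} (hz : (0 : ℂ) ∈ S)
    (h2S : w₂ ∈ S) (hw₂ : w₂ ≠ 0) {h : ℂ → ℂ} {a q D₀ : ℕ → ℂ → ℂ} {u : ℂ → ℂ}
    {Aph Pph : ℕ → ℂ → ℂ → ℂ} {g : ℕ → ℂ × ℂ → ℂ} {n : ℕ} {c : ℂ} (hc : c ≠ 0)
    (ha : AnalyticOnNhd ℂ (a 0) S) (han : AnalyticOnNhd ℂ (a n) S) (hu : AnalyticOnNhd ℂ u S)
    (hq : ∀ w ∈ S, w ^ 2 * u w = h (a 0 w) - q 0 w) (hu0 : u 0 ≠ 0)
    (hD0 : ∀ j < n, D₀ j 0 = c)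
    (H : ∀ j < n, GHyp S w₂ h (g j) (D₀ j) (a j) (q j) (a (j + 1)) (q (j + 1)) (Aph j) (Pph j)
      (Aph (j + 1)) (Pph (j + 1)))
    (hA : ∀ᶠ w in 𝓝 w₂, ∀ᶠ ε in 𝓝 (0 : ℂ), Aph 0 w ε = a 0 w)
    (hP : ∀ᶠ w in 𝓝 w₂, ∀ᶠ ε in 𝓝 (0 : ℂ), Pph 0 w ε = q 0 w)
    (hAn : ∀ᶠ w in 𝓝 w₂, ∀ᶠ ε in 𝓝 (0 : ℂ), Aph n w ε = a n w) :
    ∀ j < n, g j (a 0 0, 0) = 0 := by
  have h2S' := hS.mem_nhds h2S
  have st := Stage.start hz h2S' (ht := h) (a := a 0) (q := q 0) (Aph := Aph 0) (Pph := Pph 0)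
    ha hu hq hu0 hA hP
  obtain ⟨A', U', st'⟩ := word_G hS hz h2S' hw₂ st n H
  have hsc : ∀ w : ℂ, Tendsto (fun e : ℂ => e * w ^ 2) (𝓝 0) (𝓝 0) := by
    intro w
    have : Tendsto (fun e : ℂ => e * w ^ 2) (𝓝 0) (𝓝 (0 * w ^ 2)) :=
      Continuous.tendsto (by fun_prop) 0
    rwa [zero_mul] at this
  have h1 : ∀ᶠ w in 𝓝 w₂, ∀ᶠ e in 𝓝 (0 : ℂ), A' w e = a n w := by
    filter_upwards [st'.phA, hAn] with w p1 p2
    filter_upwards [p1, (hsc w).eventually p2] with e e1 e2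
    rw [e1, e2]
  have h2 := JA.ident_eq hSc st'.jaA (k := fun w _ => a n w)
    (fun w hw => JA.of_left (han w hw)) h2S h1 0 hz
  have h3 : DW A' (fun _ => deriv (a n) 0) := (JA.of_fun_dw (han 0 hz)).congr h2
  have h4 := DW.unique st'.dw h3
  have h5 : ∀ᶠ e in 𝓝 (0 : ℂ), ∑ j ∈ Finset.range n,
      (2 * c) * (1 + ((0 + g j (a j 0, 0)) / u 0) * e) ^ (1 / 2 : ℂ) =
        deriv (a n) 0 - deriv (a 0) 0 := by
    filter_upwards [h4] with e he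
    rw [← he]
    rw [add_sub_cancel_left]
    refine Finset.sum_congr rfl fun j hj => ?_
    rw [hD0 j (Finset.mem_range.1 hj)]
  have h6 := all_zero_germ (mul_ne_zero two_ne_zero hc) h5
  have haj : ∀ j ≤ n, a j 0 = a 0 0 := by
    intro j hj
    induction j with
    | zero => rfl
    | succ j ih =>
      rw [(H j (by omega)).ha' 0 hz, ih (by omega)]
      ring
  intro j hj
  have h7 := h6 j hj
  rw [div_eq_zero_iff, zero_add, haj j hj.le] at h7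
  exact h7.resolve_right hu0

end Vale.Agent.P097.H288
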