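import Vale.Agent.P097.H288.GLetter
import Vale.Agent.P097.H845.Sqrt

/-!
# Stages of a deformed word

`Stage` : a line of the word, as a family of germs in `e` (`ε = e w²`), in scaled variables
relative to the curve with support function `ht`.
-/

namespace Vale.Agent.P097.H288

open Set Metric Topology Filter

/-- derivative in `w` at `w = 0` of a family of germs -/
def DW (A : ℂ → ℂ → ℂ) (b : ℂ → ℂ) : Prop :=
  ∃ g : ℂ × ℂ → ℂ, AnalyticAt ℂ g (0, 0) ∧ (∀ᶠ w in 𝓝 (0 : ℂ), ∀ᶠ e in 𝓝 (0 : ℂ), A w e = g (w, e)) ∧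
    ∀ᶠ e in 𝓝 (0 : ℂ), HasDerivAt (fun w => g (w, e)) (b e) 0

theorem JA.exists_DW {A : ℂ → ℂ → ℂ} (hA : JA A 0) : ∃ b, DW A b := by
  obtain ⟨g, hg, h⟩ := hA
  refine ⟨fun e => deriv (fun w => g (w, e)) 0, g, hg, h, ?_⟩
  have h1 : ∀ᶠ e in 𝓝 (0 : ℂ), AnalyticAt ℂ g (0, e) := by
    have : ContinuousAt (fun e : ℂ => ((0, e) : ℂ × ℂ)) 0 := by fun_prop
    exact this.eventually hg.eventually_analyticAt
  filter_upwards [h1] with e he
  have h2 : AnalyticAt ℂ (fun w : ℂ => g (w, e)) 0 :=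
    AnalyticAt.comp (g := g) (f := fun w : ℂ => (w, e)) he (by fun_prop)
  exact h2.differentiableAt.hasDerivAt

theorem DW.congr {A A' : ℂ → ℂ → ℂ} {b : ℂ → ℂ} (h : DW A b)
    (h' : ∀ᶠ w in 𝓝 (0 : ℂ), ∀ᶠ e in 𝓝 (0 : ℂ), A' w e = A w e) : DW A' b := by
  obtain ⟨g, hg, h1, h2⟩ := h
  refine ⟨g, hg, ?_, h2⟩
  filter_upwards [h1, h'] with w h3 h4
  filter_upwards [h3, h4] with e h5 h6
  rw [h6, h5]

theorem DW.unique {A : ℂ → ℂ → ℂ} {b b' : ℂ → ℂ} (h : DW A b) (h' : DW A b') :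
    ∀ᶠ e in 𝓝 (0 : ℂ), b e = b' e := by
  obtain ⟨g, hg, h1, h2⟩ := h
  obtain ⟨g', hg', h1', h2'⟩ := h'
  have h3 : ∀ᶠ p in 𝓝 ((0 : ℂ), (0 : ℂ)), g p - g' p = 0 := by
    have h4 : ∀ᶠ w in 𝓝 (0 : ℂ), ∀ᶠ e in 𝓝 (0 : ℂ), g (w, e) - g' (w, e) = 0 := by
      filter_upwards [h1, h1'] with w h5 h6
      filter_upwards [h5, h6] with e h7 h8
      rw [← h7, ← h8, sub_self]
    exact zero_of_slices (g := fun p => g p - g' p) (hg.sub hg')
      (eventually_eventually_nhds.2 h4).frequently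
  have h5 : ∀ᶠ e in 𝓝 (0 : ℂ), ∀ᶠ w in 𝓝 (0 : ℂ), g (w, e) - g' (w, e) = 0 := by
    have h6 : ∀ᶠ p in 𝓝 ((0 : ℂ), (0 : ℂ)), ∀ᶠ q in 𝓝 p, g q - g' q = 0 :=
      eventually_eventually_nhds.2 h3
    have h7 : ContinuousAt (fun e : ℂ => ((0, e) : ℂ × ℂ)) 0 := by fun_prop
    filter_upwards [h7.eventually h6] with e he
    have h8 : ContinuousAt (fun w : ℂ => ((w, e) : ℂ × ℂ)) 0 := by fun_prop
    exact h8.eventually he
  filter_upwards [h2, h2', h5] with e h6 h7 h8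
  have h9 : HasDerivAt (fun w => g (w, e)) (b' e) 0 := by
    refine h7.congr_of_eventuallyEq ?_
    filter_upwards [h8] with w hw using sub_eq_zero.1 hw
  exact h6.unique h9

/-- a continuous square root of `c² (1 + β e)` -/
theorem sqrt_branch {f : ℂ → ℂ} {c β : ℂ} (hf : ContinuousAt f 0) (hc : c ≠ 0) (h0 : f 0 = c)
    (h : ∀ᶠ e in 𝓝 (0 : ℂ), f e ^ 2 = c ^ 2 * (1 + β * e)) :
    ∀ᶠ e in 𝓝 (0 : ℂ), f e = c * (1 + β * e) ^ (1 / 2 : ℂ) := by
  set r : ℂ → ℂ := fun e => (1 + β * e) ^ (1 / 2 : ℂ) with hr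
  have hra : ContinuousAt r 0 := by
    have h1 : ContinuousAt (fun x : ℂ => (1 + x) ^ (1 / 2 : ℂ)) (β * 0) := by
      rw [mul_zero]; exact H845.analyticAt_sqrt_one_add.continuousAt
    exact ContinuousAt.comp (f := fun e : ℂ => β * e) (g := fun x : ℂ => (1 + x) ^ (1 / 2 : ℂ))
      h1 (by fun_prop)
  have hr0 : r 0 = 1 := by simp [hr]
  have h1 : ContinuousAt (fun e => f e + c * r e) 0 := hf.add (continuousAt_const.mul hra)
  have h2 : ∀ᶠ e in 𝓝 (0 : ℂ), f e + c * r e ≠ 0 := by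
    refine h1.eventually_ne ?_
    rw [h0, hr0, mul_one, ← two_mul]
    exact mul_ne_zero two_ne_zero hc
  filter_upwards [h, h2] with e h3 h4
  have h5 : r e ^ 2 = 1 + β * e := H845.sqrt_one_add_sq (β * e)
  have h6 : (f e + c * r e) * (f e - c * r e) = 0 := by
    linear_combination h3 - c ^ 2 * h5
  exact sub_eq_zero.1 ((mul_eq_zero.1 h6).resolve_left h4)

/-- a stage of a deformed word -/
structure Stage (S : Set ℂ) (w₂ : ℂ) (ht : ℂ → ℂ) (a q : ℂ → ℂ) (Aph Pph : ℂ → ℂ → ℂ)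
    (A U : ℂ → ℂ → ℂ) (u ν : ℂ) (b : ℂ → ℂ) : Prop where
  jaA : ∀ w ∈ S, JA A w
  jaU : ∀ w ∈ S, JA U w
  A0 : ∀ w ∈ S, A w 0 = a w
  U0 : ∀ w ∈ S, w ^ 2 * U w 0 = ht (a w) - q w
  phA : ∀ᶠ w in 𝓝 w₂, ∀ᶠ e in 𝓝 (0 : ℂ), A w e = Aph w (e * w ^ 2)
  phU : ∀ᶠ w in 𝓝 w₂, ∀ᶠ e in 𝓝 (0 : ℂ), w ^ 2 * U w e = ht (A w e) - Pph w (e * w ^ 2)
  zA : ∀ᶠ e in 𝓝 (0 : ℂ), A 0 e = a 0
  zU : ∀ᶠ e in 𝓝 (0 : ℂ), U 0 e = u + ν * e
  u0 : u ≠ 0
  dw : DW A b

theorem JA.of_fun_dw {a : ℂ → ℂ} (ha : AnalyticAt ℂ a 0) :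
    DW (fun w _ => a w) (fun _ => deriv a 0) := by
  refine ⟨fun p => a p.1, AnalyticAt.comp (g := a) (f := fun p : ℂ × ℂ => p.1) ha analyticAt_fst,
    Eventually.of_forall fun _ => Eventually.of_forall fun _ => rfl,
    Eventually.of_forall fun e => ?_⟩
  exact ha.differentiableAt.hasDerivAt

/-- the undeformed first line -/
theorem Stage.start {S : Set ℂ} {w₂ : ℂ} (hz : (0 : ℂ) ∈ S) (h2 : S ∈ 𝓝 w₂) {ht a q : ℂ → ℂ}
    {Aph Pph : ℂ → ℂ → ℂ} {u : ℂ → ℂ} (ha : AnalyticOnNhd ℂ a S) (hu : AnalyticOnNhd ℂ u S)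
    (hq : ∀ w ∈ S, w ^ 2 * u w = ht (a w) - q w) (hu0 : u 0 ≠ 0)
    (hA : ∀ᶠ w in 𝓝 w₂, ∀ᶠ ε in 𝓝 (0 : ℂ), Aph w ε = a w)
    (hP : ∀ᶠ w in 𝓝 w₂, ∀ᶠ ε in 𝓝 (0 : ℂ), Pph w ε = q w) :
    Stage S w₂ ht a q Aph Pph (fun w _ => a w) (fun w _ => u w) (u 0) 0 (fun _ => deriv a 0) := by
  have hsc : ∀ w : ℂ, Tendsto (fun e : ℂ => e * w ^ 2) (𝓝 0) (𝓝 0) := by
    intro w
    have : Tendsto (fun e : ℂ => e * w ^ 2) (𝓝 0) (𝓝 (0 * w ^ 2)) :=
      Continuous.tendsto (by fun_prop) 0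
    rwa [zero_mul] at this
  refine ⟨fun w hw => JA.of_left (ha w hw), fun w hw => JA.of_left (hu w hw), fun w _ => rfl, hq,
    ?_, ?_, Eventually.of_forall fun _ => rfl, Eventually.of_forall fun _ => by ring, hu0,
    JA.of_fun_dw (ha 0 hz)⟩
  · filter_upwards [hA] with w h3
    filter_upwards [(hsc w).eventually h3] with e he
    exact he.symm
  · filter_upwards [hP, h2] with w h3 h4
    filter_upwards [(hsc w).eventually h3] with e he
    rw [he]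
    exact hq w h4

/-- **the grazing letter, for stages** -/
theorem Stage.G {S : Set ℂ} (hS : IsOpen S) {w₂ : ℂ} (hz : (0 : ℂ) ∈ S) (h2S : S ∈ 𝓝 w₂)
    (hw₂ : w₂ ≠ 0) {h : ℂ → ℂ} {a q a' q' : ℂ → ℂ} {Aph Pph Aph' Pph' A U : ℂ → ℂ → ℂ}
    {u ν : ℂ} {b : ℂ → ℂ} (st : Stage S w₂ h a q Aph Pph A U u ν b) {g : ℂ × ℂ → ℂ} {D₀ : ℂ → ℂ}
    (hDc : ∀ w ∈ S, ContinuousAt D₀ w) (hac : ContinuousAt a 0)
    (h1 : ∀ w ∈ S, AnalyticAt ℂ h (a w)) (h2 : ∀ w ∈ S, AnalyticAt ℂ h (a w + w * D₀ w))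
    (h3 : ∀ w ∈ S, AnalyticAt ℂ h (a w + 2 * (w * D₀ w)))
    (hg : ∀ w ∈ S, AnalyticAt ℂ g (a w + w * D₀ w, 0))
    (hr : ∀ w ∈ S, rho h (a w + w * D₀ w) ≠ 0) (hD : ∀ w ∈ S, D₀ w ≠ 0)
    (hs : ∀ w ∈ S, w ≠ 0 → Complex.sin (w * D₀ w) ≠ 0)
    (ha' : ∀ w ∈ S, a' w = a w + 2 * (w * D₀ w))
    (hq : ∀ w ∈ S, q w = fin h (a w) (w * D₀ w)) (hq' : ∀ w ∈ S, q' w = fout h (a w) (w * D₀ w))
    (hph : ∀ᶠ w in 𝓝 w₂, ContinuousAt (Aph w) 0 ∧ ContinuousAt (Aph' w) 0 ∧ Aph w 0 = a w ∧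
      Aph' w 0 = a' w ∧ ∀ᶠ ε in 𝓝 (0 : ℂ),
        Pph w ε = fin (mir h g ε) (Aph w ε) ((Aph' w ε - Aph w ε) / 2) ∧
        Pph' w ε = fout (mir h g ε) (Aph w ε) ((Aph' w ε - Aph w ε) / 2)) :
    ∃ A' U' : ℂ → ℂ → ℂ, Stage S w₂ h a' q' Aph' Pph' A' U' u ν
      (fun e => b e + 2 * D₀ 0 * (1 + (ν + g (a 0, 0)) / u * e) ^ (1 / 2 : ℂ)) := by
  have hsc : ∀ w : ℂ, Tendsto (fun e : ℂ => e * w ^ 2) (𝓝 0) (𝓝 0) := by
    intro w
    have : Tendsto (fun e : ℂ => e * w ^ 2) (𝓝 0) (𝓝 (0 * w ^ 2)) :=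
      Continuous.tendsto (by fun_prop) 0
    rwa [zero_mul] at this
  -- the law at `e = 0`
  have hne : ∀ w ∈ S, w ≠ 0 → U w 0 + D₀ w ^ 2 * Ker h (a w, w * D₀ w) = 0 := by
    intro w hw hw0
    have e1 := st.U0 w hw
    rw [hq w hw, fin_eq_Ker] at e1
    have e2 : w ^ 2 * (U w 0 + D₀ w ^ 2 * Ker h (a w, w * D₀ w)) = 0 := by
      linear_combination e1
    exact (mul_eq_zero.1 e2).resolve_left (pow_ne_zero _ hw0)
  have h0 : ∀ w ∈ S, U w 0 + D₀ w ^ 2 * Ker h (a w, w * D₀ w) = 0 := by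
    intro w hw
    by_cases hw0 : w = 0
    · subst hw0
      obtain ⟨gU, hgU, hgU1⟩ := st.jaU 0 hw
      have c1 : ContinuousAt (fun w => gU (w, 0) + D₀ w ^ 2 * Ker h (a w, w * D₀ w)) 0 := by
        refine ContinuousAt.add ?_ (((hDc 0 hw).pow 2).mul ?_)
        · exact ContinuousAt.comp (f := fun w : ℂ => (w, (0 : ℂ))) (g := gU) hgU.continuousAt
            (by fun_prop)
        · refine ContinuousAt.comp (f := fun w : ℂ => (a w, w * D₀ w)) (g := Ker h) ?_ ?_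
          · exact (analyticAt_Ker (h1 0 hw) (h2 0 hw)).continuousAt
          · exact hac.prodMk (continuousAt_id.mul (hDc 0 hw))
      have c2 : Tendsto (fun w => gU (w, 0) + D₀ w ^ 2 * Ker h (a w, w * D₀ w)) (𝓝[≠] 0) (𝓝 0) := by
        refine tendsto_const_nhds.congr' ?_
        filter_upwards [(JA.eventually_zero hgU1).filter_mono nhdsWithin_le_nhds,
          (hS.eventually_mem hw).filter_mono nhdsWithin_le_nhds,
          self_mem_nhdsWithin] with w e1 e2 e3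
        rw [← e1, hne w e2 e3]
      have c3 := tendsto_nhds_unique (c1.tendsto.mono_left nhdsWithin_le_nhds) c2
      rw [JA.eq_zero hgU1]
      exact c3
    · exact hne w hw hw0
  obtain ⟨D, hDD⟩ := G_step hS st.jaA st.jaU (h := h) (g := g) (D₀ := D₀) hDc
    (fun w hw => by rw [st.A0 w hw]; exact h1 w hw)
    (fun w hw => by rw [st.A0 w hw]; exact h2 w hw)
    (fun w hw => by rw [st.A0 w hw]; exact hg w hw)
    (fun w hw => by rw [st.A0 w hw]; exact hr w hw) hD hs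
    (fun w hw => by rw [st.A0 w hw]; exact h0 w hw)
  have jD : ∀ w ∈ S, JA D w := fun w hw => (hDD w hw).1
  have D0 : ∀ w ∈ S, D w 0 = D₀ w := fun w hw => (hDD w hw).2.1
  have heq := fun w hw => (hDD w hw).2.2.1
  have huniq := fun w hw => (hDD w hw).2.2.2
  have jA' : ∀ w ∈ S, JA (fun w e => A w e + 2 * (w * D w e)) w := fun w hw =>
    (st.jaA w hw).add ((JA.const 2 w).mul ((JA.w w).mul (jD w hw)))
  have jU' : ∀ w ∈ S, JA (fun w e => UG h g w e (A w e) (D w e)) w := by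
    intro w hw
    refine JA.UG (st.jaA w hw) (jD w hw) ?_ ?_ ?_
    · rw [st.A0 w hw, D0 w hw]; exact h2 w hw
    · rw [st.A0 w hw, D0 w hw]; exact h3 w hw
    · rw [st.A0 w hw, D0 w hw]; exact hg w hw
  have hU'0 : ∀ w ∈ S, w ≠ 0 → w ^ 2 * UG h g w 0 (A w 0) (D w 0) = h (a' w) - q' w := by
    intro w hw hw0
    have hw2 : w ^ 2 ≠ 0 := pow_ne_zero _ hw0
    rw [st.A0 w hw, D0 w hw]
    have e1 : UG h g w 0 (a w) (D₀ w) = -(D₀ w ^ 2 * Ker h (a w + 2 * (w * D₀ w), -(w * D₀ w))) := by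
      rw [UG, zero_mul, sub_zero]
    rw [e1, ha' w hw, hq' w hw, fout_eq_Ker]
    ring
  -- the physical chain
  have hwne : ∀ᶠ w in 𝓝 w₂, w ≠ 0 := continuousAt_id.eventually_ne hw₂
  have hphD : ∀ᶠ w in 𝓝 w₂, ∀ᶠ e in 𝓝 (0 : ℂ),
      (Aph' w (e * w ^ 2) - Aph w (e * w ^ 2)) / 2 = w * D w e := by
    filter_upwards [hph, st.phA, st.phU, hwne, h2S] with w p1 p2 p3 p4 p5
    obtain ⟨k1, k2, k3, k4, k5⟩ := p1
    have c1 : ContinuousAt (fun e : ℂ => Aph w (e * w ^ 2)) 0 := by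
      refine ContinuousAt.comp (f := fun e : ℂ => e * w ^ 2) (g := Aph w) ?_ (by fun_prop)
      rwa [zero_mul]
    have c2 : ContinuousAt (fun e : ℂ => Aph' w (e * w ^ 2)) 0 := by
      refine ContinuousAt.comp (f := fun e : ℂ => e * w ^ 2) (g := Aph' w) ?_ (by fun_prop)
      rwa [zero_mul]
    set D' : ℂ → ℂ := fun e => (Aph' w (e * w ^ 2) - Aph w (e * w ^ 2)) / 2 / w with hD'
    have c3 : ContinuousAt D' 0 := ((c2.sub c1).div_const 2).div_const w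
    have e0 : D' 0 = D₀ w := by
      rw [hD']
      simp only [zero_mul]
      rw [k3, k4, ha' w p5]
      field_simp
      ring
    have hpt : ∀ᶠ e in 𝓝 (0 : ℂ), AnalyticAt ℂ h (A w e + w * D' e) ∧
        AnalyticAt ℂ g (A w e + w * D' e, e * w ^ 2) := by
      have c4 : ContinuousAt (fun e : ℂ => A w e + w * D' e) 0 :=
        (st.jaA w p5).continuousAt.add (continuousAt_const.mul c3)
      have c5 : ContinuousAt (fun e : ℂ => ((A w e + w * D' e, e * w ^ 2) : ℂ × ℂ)) 0 :=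
        c4.prodMk (by fun_prop)
      have e1 : A w 0 + w * D' 0 = a w + w * D₀ w := by rw [e0, st.A0 w p5]
      refine (c4.eventually (p := fun y => AnalyticAt ℂ h y) ?_).and
        (c5.eventually (p := fun y => AnalyticAt ℂ g y) ?_)
      · show ∀ᶠ y in 𝓝 (A w 0 + w * D' 0), _
        rw [e1]; exact (h2 w p5).eventually_analyticAt
      · show ∀ᶠ y in 𝓝 (A w 0 + w * D' 0, 0 * w ^ 2), _
        rw [e1, zero_mul]
        exact (hg w p5).eventually_analyticAt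
    have hlaw : ∀ᶠ e in 𝓝 (0 : ℂ), EqG h g w e (A w e) (U w e) (D' e) = 0 := by
      filter_upwards [p2, p3, (hsc w).eventually k5, hpt] with e e1 e2 e3 e4
      have e5 : U w e = (h (A w e) - Pph w (e * w ^ 2)) / w ^ 2 := by
        rw [eq_div_iff (pow_ne_zero _ p4), ← e2]
        ring
      have e6 : w * D' e = (Aph' w (e * w ^ 2) - Aph w (e * w ^ 2)) / 2 := by
        rw [hD']
        field_simp
      rw [e5, EqG_iff p4 e4.1 e4.2, e6, e1]
      exact e3.1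
    have hfin := huniq w p5 D' c3 e0 hlaw
    filter_upwards [hfin] with e he
    rw [← he, hD']
    field_simp
  refine ⟨fun w e => A w e + 2 * (w * D w e), fun w e => UG h g w e (A w e) (D w e), jA', jU',
    ?_, ?_, ?_, ?_, ?_, ?_, st.u0, ?_⟩
  · intro w hw
    rw [ha' w hw, ← st.A0 w hw, ← D0 w hw]
  · intro w hw
    by_cases hw0 : w = 0
    · subst hw0
      have e1 : a' 0 = a 0 := by rw [ha' 0 hw]; ring
      have e2 : q' 0 = h (a 0) := by
        rw [hq' 0 hw, zero_mul, fout]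
        simp
      rw [e1, e2]
      simp
    · exact hU'0 w hw hw0
  · filter_upwards [st.phA, hphD] with w p1 p2
    filter_upwards [p1, p2] with e e1 e2
    rw [← e2, e1]
    ring
  · filter_upwards [hph, st.phA, hphD, hwne, h2S] with w p1 p2 p3 p4 p5
    obtain ⟨k1, k2, k3, k4, k5⟩ := p1
    have hpt : ∀ᶠ e in 𝓝 (0 : ℂ), AnalyticAt ℂ h (A w e + w * D w e) ∧
        AnalyticAt ℂ g (A w e + w * D w e, e * w ^ 2) := by
      have c4 : ContinuousAt (fun e : ℂ => A w e + w * D w e) 0 :=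
        (st.jaA w p5).continuousAt.add (continuousAt_const.mul (jD w p5).continuousAt)
      have c5 : ContinuousAt (fun e : ℂ => ((A w e + w * D w e, e * w ^ 2) : ℂ × ℂ)) 0 :=
        c4.prodMk (by fun_prop)
      have e1 : A w 0 + w * D w 0 = a w + w * D₀ w := by rw [D0 w p5, st.A0 w p5]
      refine (c4.eventually (p := fun y => AnalyticAt ℂ h y) ?_).and
        (c5.eventually (p := fun y => AnalyticAt ℂ g y) ?_)
      · show ∀ᶠ y in 𝓝 (A w 0 + w * D w 0), _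
        rw [e1]; exact (h2 w p5).eventually_analyticAt
      · show ∀ᶠ y in 𝓝 (A w 0 + w * D w 0, 0 * w ^ 2), _
        rw [e1, zero_mul]
        exact (hg w p5).eventually_analyticAt
    filter_upwards [p2, p3, (hsc w).eventually k5, hpt] with e e1 e2 e3 e4
    rw [UG_eq p4 e4.1 e4.2, e3.2, e2, ← e1]
    field_simp
  · filter_upwards [st.zA] with e he
    rw [he, ha' 0 hz]
    ring
  · filter_upwards [st.zU, heq 0 hz] with e e1 e2
    rw [EqG_zero] at e2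
    rw [UG_zero]
    linear_combination e1 - e2
  · -- derivative at `w = 0`
    obtain ⟨gA, hgA, hgA1, hgA2⟩ := st.dw
    obtain ⟨gD, hgD, hgD1⟩ := jD 0 hz
    have hsq : ∀ᶠ e in 𝓝 (0 : ℂ), gD (0, e) = D₀ 0 * (1 + (ν + g (a 0, 0)) / u * e) ^ (1 / 2 : ℂ) := by
      have e0 : gD (0, 0) = D₀ 0 := by rw [← JA.eq_zero hgD1, D0 0 hz]
      refine sqrt_branch (f := fun e => gD (0, e)) ?_ (hD 0 hz) e0 ?_
      · exact ContinuousAt.comp (f := fun e : ℂ => ((0 : ℂ), e)) (g := gD) hgD.continuousAt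
          (by fun_prop)
      · have hr0 : rho h (a 0) ≠ 0 := by
          have := hr 0 hz
          rwa [zero_mul, add_zero] at this
        have e3 : u = rho h (a 0) * D₀ 0 ^ 2 / 2 := by
          have e4 := (st.zU.self_of_nhds)
          rw [mul_zero, add_zero] at e4
          have e5 := h0 0 hz
          rw [e4, zero_mul, Ker_zero] at e5
          linear_combination e5
        filter_upwards [st.zA, st.zU, heq 0 hz, hgD1.self_of_nhds] with e f1 f2 f3 f4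
        rw [EqG_zero, f1, f2, f4] at f3
        have hu := st.u0
        have e6 : (rho h (a 0) / 2) * gD (0, e) ^ 2 = u + (ν + g (a 0, 0)) * e := by
          linear_combination -f3
        have e7 : D₀ 0 ^ 2 = u / (rho h (a 0) / 2) := by
          rw [e3]
          field_simp
        rw [e7]
        have e8 : gD (0, e) ^ 2 = (u + (ν + g (a 0, 0)) * e) / (rho h (a 0) / 2) := by
          rw [← e6]
          field_simp
        rw [e8]
        field_simp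
    refine ⟨fun p => gA p + 2 * (p.1 * gD p), hgA.add (analyticAt_const.mul
      (analyticAt_fst.mul hgD)), ?_, ?_⟩
    · filter_upwards [hgA1, hgD1] with w e1 e2
      filter_upwards [e1, e2] with e e3 e4
      rw [e3, e4]
    · have e1 : ∀ᶠ e in 𝓝 (0 : ℂ), AnalyticAt ℂ gD (0, e) := by
        have : ContinuousAt (fun e : ℂ => ((0, e) : ℂ × ℂ)) 0 := by fun_prop
        exact this.eventually hgD.eventually_analyticAt
      filter_upwards [hgA2, e1, hsq] with e f1 f2 f3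
      have f4 : AnalyticAt ℂ (fun w : ℂ => gD (w, e)) 0 :=
        AnalyticAt.comp (g := gD) (f := fun w : ℂ => (w, e)) f2 (by fun_prop)
      have f5 : HasDerivAt (fun w : ℂ => w * gD (w, e)) (gD (0, e)) 0 := by
        have := (hasDerivAt_id (0 : ℂ)).fun_mul f4.differentiableAt.hasDerivAt
        refine this.congr_deriv ?_
        simp
      refine (f1.fun_add (f5.const_mul 2)).congr_deriv ?_
      rw [f3]
      ring

end Vale.Agent.P097.H288
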